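import Vale.Agent.Lib.P061.TreeDepth

/-!
Thin spanning trees when deleting a small vertex set leaves a forest.

The spanning forest is rooted in the deleted set `R`.  Parallel classes with at least `k / 4` copies are
thick and form clusters; every cluster either attaches to a root directly or to a child cluster in the
tree of that root.  A discharging argument with one flag per cluster gives the estimate.
-/

namespace Vale.Agent.Lib.P061

open Classical Finset

variable {V E : Type}

/-- The copy `e` joins `a` and `b`. -/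
def Multigraph.Joins (G : Multigraph V E) (e : E) (a b : V) : Prop :=
  (G.fst e = a ∧ G.snd e = b) ∨ (G.fst e = b ∧ G.snd e = a)

/-- `G - X` is a forest, with a rooted witness: every copy with both endpoints outside `X` joins a
vertex to its parent, and the rank increases strictly towards the parent. -/
def Multigraph.ForestOff (G : Multigraph V E) (X : Finset V) (par : V → V) (rk : V → ℕ) : Prop :=
  ∀ e, G.fst e ∉ X → G.snd e ∉ X →
    (par (G.fst e) = G.snd e ∧ rk (G.fst e) < rk (G.snd e)) ∨
    (par (G.snd e) = G.fst e ∧ rk (G.snd e) < rk (G.fst e))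

/-- The data of the construction. -/
structure FCtx (V E : Type) where
  G : Multigraph V E
  R : Finset V
  par : V → V
  rk : V → ℕ
  k : ℕ

namespace FCtx

variable [Fintype V] [Fintype E] (C : FCtx V E)

/-- The copies between `w` and its parent. -/
noncomputable def PC (w : V) : Finset E :=
  univ.filter (fun e => w ∉ C.R ∧ C.par w ∉ C.R ∧ C.rk w < C.rk (C.par w) ∧ C.G.Joins e w (C.par w))

/-- The class of copies from `w` to its parent is thick. -/
def Up (w : V) : Prop := w ∉ C.R ∧ C.k ≤ 4 * (C.PC w).card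

/-- The tops of the clusters. -/
noncomputable def T : Finset V := univ.filter (fun t => t ∉ C.R ∧ ¬ C.Up t)

/-- The tops of the child clusters of the cluster with top `t`. -/
noncomputable def Ch (top : V → V) (t : V) : Finset V :=
  C.T.filter (fun c => C.rk c < C.rk (C.par c) ∧ C.par c ∉ C.R ∧ top (C.par c) = t)

/-- Copies from the cluster of `t` to `r`. -/
noncomputable def direct (top : V → V) (t r : V) : Finset E :=
  univ.filter (fun e => ∃ x, x ∉ C.R ∧ top x = t ∧ C.G.Joins e x r)

/-- The bundle of the cluster of `t` towards the tree of `r`. -/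
noncomputable def BB (top g : V → V) (t r : V) : Finset E :=
  C.direct top t r ∪ ((C.Ch top t).filter (fun c => g c = r)).biUnion C.PC

/-- The vertex owning a copy. -/
noncomputable def owner (top : V → V) (e : E) : V :=
  if C.G.fst e ∈ C.R then top (C.G.snd e)
  else if C.G.snd e ∈ C.R then top (C.G.fst e)
  else
    (if C.Up (if C.rk (C.G.fst e) < C.rk (C.G.snd e) then C.G.fst e else C.G.snd e)
     then (if C.rk (C.G.fst e) < C.rk (C.G.snd e) then C.G.fst e else C.G.snd e)
     else top (C.par (if C.rk (C.G.fst e) < C.rk (C.G.snd e) then C.G.fst e else C.G.snd e)))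

/-- The standing hypotheses. -/
structure Good (top : V → V) : Prop where
  hk : 1 ≤ C.k
  hR : C.R.Nonempty
  hF : C.G.ForestOff C.R C.par C.rk
  hcut : ∀ P : Finset V, P.Nonempty → P ≠ univ → C.k ≤ C.G.cutCount univ (P : Set V)
  htop : ∀ w, top w = if C.Up w then top (C.par w) else w

variable {C}

lemma mem_PC {w : V} {e : E} : e ∈ C.PC w ↔
    w ∉ C.R ∧ C.par w ∉ C.R ∧ C.rk w < C.rk (C.par w) ∧ C.G.Joins e w (C.par w) := by
  simp [PC]

lemma up_facts (hk : 1 ≤ C.k) {w : V} (h : C.Up w) :
    C.par w ∉ C.R ∧ C.rk w < C.rk (C.par w) ∧ (C.PC w).Nonempty := by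
  have hne : (C.PC w).Nonempty := by
    apply card_pos.mp
    have := h.2
    omega
  obtain ⟨e, he⟩ := hne
  obtain ⟨_, h2, h3, _⟩ := mem_PC.mp he
  exact ⟨h2, h3, ⟨e, he⟩⟩

lemma up_ind (hk : 1 ≤ C.k) (P : V → Prop) (h : ∀ w, (C.Up w → P (C.par w)) → P w) : ∀ w, P w := by
  set B := (univ.sup C.rk) + 1 with hB
  have hlt : ∀ w, C.rk w < B := fun w => Nat.lt_succ_of_le (le_sup (f := C.rk) (mem_univ w))
  have key : ∀ n w, B - C.rk w ≤ n → P w := by
    intro n
    induction n with
    | zero =>
      intro w hw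
      have := hlt w
      omega
    | succ n ih =>
      intro w hw
      apply h
      intro hup
      apply ih
      have h1 := (up_facts hk hup).2.1
      have h2 := hlt (C.par w)
      omega
  exact fun w => key _ w le_rfl

lemma exists_top (hk : 1 ≤ C.k) : ∃ top : V → V, ∀ w, top w = if C.Up w then top (C.par w) else w := by
  set B := (univ.sup C.rk) + 1 with hB
  have hlt : ∀ w, C.rk w < B := fun w => Nat.lt_succ_of_le (le_sup (f := C.rk) (mem_univ w))
  have wf : WellFounded (fun a b : V => B - C.rk a < B - C.rk b) :=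
    InvImage.wf (fun a => B - C.rk a) Nat.lt_wfRel.wf
  have hdec : ∀ w, C.Up w → B - C.rk (C.par w) < B - C.rk w := by
    intro w hw
    have h1 := (up_facts hk hw).2.1
    have h2 := hlt (C.par w)
    omega
  refine ⟨wf.fix (fun w IH => if h : C.Up w then IH (C.par w) (hdec w h) else w), fun w => ?_⟩
  rw [WellFounded.fix_eq]
  by_cases h : C.Up w
  · rw [dif_pos h, if_pos h]
  · rw [dif_neg h, if_neg h]

section
variable {top : V → V} (hC : C.Good top)
include hC

lemma top_up {w : V} (h : C.Up w) : top w = top (C.par w) := by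
  rw [hC.htop w, if_pos h]

lemma top_not_up {w : V} (h : ¬ C.Up w) : top w = w := by
  rw [hC.htop w, if_neg h]

lemma not_up_top : ∀ w, ¬ C.Up (top w) := by
  apply up_ind hC.hk
  intro w ih
  by_cases h : C.Up w
  · rw [top_up hC h]
    exact ih h
  · rw [top_not_up hC h]
    exact h

lemma top_notMem : ∀ w, w ∉ C.R → top w ∉ C.R := by
  apply up_ind hC.hk
  intro w ih hw
  by_cases h : C.Up w
  · rw [top_up hC h]
    exact ih h (up_facts hC.hk h).1
  · rw [top_not_up hC h]
    exact hw

lemma rk_le_top : ∀ w, C.rk w ≤ C.rk (top w) := by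
  apply up_ind hC.hk
  intro w ih
  by_cases h : C.Up w
  · rw [top_up hC h]
    have := ih h
    have h1 := (up_facts hC.hk h).2.1
    omega
  · rw [top_not_up hC h]

lemma top_mem_T {w : V} (hw : w ∉ C.R) : top w ∈ C.T := by
  simp only [T, mem_filter, mem_univ, true_and]
  exact ⟨top_notMem hC w hw, not_up_top hC w⟩

omit hC in
lemma mem_T {t : V} : t ∈ C.T ↔ t ∉ C.R ∧ ¬ C.Up t := by
  simp [T]

omit hC in
lemma mem_Ch {t c : V} : c ∈ C.Ch top t ↔
    c ∈ C.T ∧ C.rk c < C.rk (C.par c) ∧ C.par c ∉ C.R ∧ top (C.par c) = t := by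
  simp [Ch]

omit hC in
lemma mem_direct {t r : V} {e : E} : e ∈ C.direct top t r ↔
    ∃ x, x ∉ C.R ∧ top x = t ∧ C.G.Joins e x r := by
  simp [direct]

omit hC in
lemma mem_BB {g : V → V} {t r : V} {e : E} : e ∈ C.BB top g t r ↔
    (∃ x, x ∉ C.R ∧ top x = t ∧ C.G.Joins e x r) ∨
      ∃ c, c ∈ C.Ch top t ∧ g c = r ∧ e ∈ C.PC c := by
  simp only [BB, mem_union, mem_direct, mem_biUnion, mem_filter]
  constructor
  · rintro (h | ⟨c, ⟨h1, h2⟩, h3⟩)
    · exact Or.inl h
    · exact Or.inr ⟨c, h1, h2, h3⟩
  · rintro (h | ⟨c, h1, h2, h3⟩)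
    · exact Or.inl h
    · exact Or.inr ⟨c, ⟨h1, h2⟩, h3⟩

lemma rk_child {t c : V} (hc : c ∈ C.Ch top t) : C.rk c < C.rk t := by
  obtain ⟨_, h2, _, h4⟩ := mem_Ch.mp hc
  have := rk_le_top hC (C.par c)
  rw [h4] at this
  omega

/-- Copies at a cluster: the parent class and the bundles. -/
lemma mass {g : V → V} {t : V} (ht : t ∈ C.T) (hg : ∀ c ∈ C.Ch top t, g c ∈ C.R) :
    ∃ r ∈ C.R, 3 * C.k ≤ 4 * C.R.card * (C.BB top g t r).card := by
  obtain ⟨htR, htU⟩ := mem_T.mp ht
  set D : Finset V := univ.filter (fun x => x ∉ C.R ∧ top x = t) with hD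
  have memD : ∀ x, x ∈ D ↔ x ∉ C.R ∧ top x = t := by
    intro x
    simp [hD]
  have htD : t ∈ D := (memD t).2 ⟨htR, top_not_up hC htU⟩
  have hDne : D ≠ univ := by
    obtain ⟨r0, hr0⟩ := hC.hR
    intro h
    have : r0 ∈ D := h ▸ mem_univ r0
    exact ((memD r0).1 this).1 hr0
  have hk1 := hC.hcut D ⟨t, htD⟩ hDne
  have hsub : (univ.filter (fun e => C.G.Crosses (D : Set V) e)) ⊆
      C.PC t ∪ C.R.biUnion (fun r => C.BB top g t r) := by
    intro e he
    have he' := (mem_filter.mp he).2
    -- one endpoint in `D`, the other outside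
    obtain ⟨x, y, hx, hy, hJ⟩ : ∃ x y, x ∈ D ∧ y ∉ D ∧ C.G.Joins e x y := by
      unfold Multigraph.Crosses at he'
      simp only [mem_coe] at he'
      rcases he' with ⟨h1, h2⟩ | ⟨h1, h2⟩
      · exact ⟨_, _, h1, h2, Or.inl ⟨rfl, rfl⟩⟩
      · exact ⟨_, _, h2, h1, Or.inr ⟨rfl, rfl⟩⟩
    obtain ⟨hxR, hxt⟩ := (memD x).1 hx
    by_cases hyR : y ∈ C.R
    · refine mem_union_right _ (mem_biUnion.mpr ⟨y, hyR, mem_BB.mpr (Or.inl ⟨x, hxR, hxt, hJ⟩)⟩)
    · have hF' : (C.par x = y ∧ C.rk x < C.rk y) ∨ (C.par y = x ∧ C.rk y < C.rk x) := by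
        rcases hJ with ⟨h1, h2⟩ | ⟨h1, h2⟩
        · have := hC.hF e (by rw [h1]; exact hxR) (by rw [h2]; exact hyR)
          rw [h1, h2] at this
          exact this
        · have := hC.hF e (by rw [h1]; exact hyR) (by rw [h2]; exact hxR)
          rw [h1, h2] at this
          exact this.symm
      rcases hF' with ⟨h1, h2⟩ | ⟨h1, h2⟩
      · have hePC : e ∈ C.PC x := by
          refine mem_PC.mpr ⟨hxR, by rw [h1]; exact hyR, by rw [h1]; exact h2, ?_⟩
          rw [h1]
          exact hJ
        have hxU : ¬ C.Up x := by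
          intro hU
          apply hy
          refine (memD y).2 ⟨hyR, ?_⟩
          rw [← h1, ← top_up hC hU]
          exact hxt
        have hxe : x = t := by
          rw [← hxt]
          exact (top_not_up hC hxU).symm
        rw [← hxe]
        exact mem_union_left _ hePC
      · have hePC : e ∈ C.PC y := by
          refine mem_PC.mpr ⟨hyR, by rw [h1]; exact hxR, by rw [h1]; exact h2, ?_⟩
          rw [h1]
          exact hJ.symm
        have hyU : ¬ C.Up y := by
          intro hU
          apply hy
          refine (memD y).2 ⟨hyR, ?_⟩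
          rw [top_up hC hU, h1]
          exact hxt
        have hyCh : y ∈ C.Ch top t := by
          refine mem_Ch.mpr ⟨mem_T.mpr ⟨hyR, hyU⟩, by rw [h1]; exact h2, by rw [h1]; exact hxR, ?_⟩
          rw [h1]
          exact hxt
        refine mem_union_right _ (mem_biUnion.mpr ⟨g y, hg y hyCh, mem_BB.mpr (Or.inr ⟨y, hyCh, rfl, hePC⟩)⟩)
  have hcard : C.k ≤ (C.PC t).card + ∑ r ∈ C.R, (C.BB top g t r).card := by
    calc C.k ≤ C.G.cutCount univ (D : Set V) := hk1
      _ ≤ (C.PC t ∪ C.R.biUnion (fun r => C.BB top g t r)).card := card_le_card hsub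
      _ ≤ (C.PC t).card + (C.R.biUnion (fun r => C.BB top g t r)).card := card_union_le _ _
      _ ≤ _ := Nat.add_le_add_left card_biUnion_le _
  have hthin : 4 * (C.PC t).card < C.k := by
    by_contra hcon
    exact htU ⟨htR, not_lt.mp hcon⟩
  by_contra hcon
  push Not at hcon
  have hRne := hC.hR
  have hRpos : 0 < C.R.card := card_pos.mpr hRne
  have h2 : ∑ r ∈ C.R, 4 * C.R.card * (C.BB top g t r).card < ∑ _r ∈ C.R, 3 * C.k :=
    sum_lt_sum_of_nonempty hRne hcon
  rw [← mul_sum, sum_const, smul_eq_mul] at h2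
  have h3 : 4 * ∑ r ∈ C.R, (C.BB top g t r).card < 3 * C.k := by
    have h4 : C.R.card * (4 * ∑ r ∈ C.R, (C.BB top g t r).card) < C.R.card * (3 * C.k) := by
      calc C.R.card * (4 * ∑ r ∈ C.R, (C.BB top g t r).card)
          = 4 * C.R.card * ∑ r ∈ C.R, (C.BB top g t r).card := by ring
        _ < _ := h2
    exact Nat.lt_of_mul_lt_mul_left h4
  omega

omit hC in
lemma BB_congr {g g' : V → V} {t r : V} (h : ∀ c ∈ C.Ch top t, g c = g' c) :
    C.BB top g t r = C.BB top g' t r := by
  ext e
  simp only [mem_BB]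
  constructor
  · rintro (h1 | ⟨c, h1, h2, h3⟩)
    · exact Or.inl h1
    · exact Or.inr ⟨c, h1, by rw [← h c h1]; exact h2, h3⟩
  · rintro (h1 | ⟨c, h1, h2, h3⟩)
    · exact Or.inl h1
    · exact Or.inr ⟨c, h1, by rw [h c h1]; exact h2, h3⟩

/-- The root of every cluster, by recursion on the rank. -/
lemma exists_g : ∃ g : V → V, ∀ t ∈ C.T, g t ∈ C.R ∧ 3 * C.k ≤ 4 * C.R.card * (C.BB top g t (g t)).card := by
  obtain ⟨r0, hr0⟩ := hC.hR
  haveI : Nonempty V := ⟨r0⟩
  have key : ∀ N : ℕ, ∃ g : V → V, ∀ t ∈ C.T, C.rk t < N →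
      g t ∈ C.R ∧ 3 * C.k ≤ 4 * C.R.card * (C.BB top g t (g t)).card := by
    intro N
    induction N with
    | zero => exact ⟨fun _ => r0, fun t _ h => absurd h (Nat.not_lt_zero _)⟩
    | succ N ih =>
      obtain ⟨g, hg⟩ := ih
      have hex : ∀ t, t ∈ C.T ∧ C.rk t = N → ∃ r ∈ C.R, 3 * C.k ≤ 4 * C.R.card * (C.BB top g t r).card := by
        rintro t ⟨ht, hN⟩
        apply mass hC ht
        intro c hc
        have h1 := rk_child hC hc
        exact (hg c (mem_Ch.mp hc).1 (by omega)).1
      choose! r hr1 hr2 using hex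
      refine ⟨fun t => if t ∈ C.T ∧ C.rk t = N then r t else g t, ?_⟩
      intro t ht hlt
      have hsame : ∀ c ∈ C.Ch top t, g c = (fun t => if t ∈ C.T ∧ C.rk t = N then r t else g t) c := by
        intro c hc
        have h1 := rk_child hC hc
        have h2 : ¬ (c ∈ C.T ∧ C.rk c = N) := fun h => by omega
        simp only [if_neg h2]
      by_cases hN : C.rk t = N
      · have h3 : t ∈ C.T ∧ C.rk t = N := ⟨ht, hN⟩
        simp only [if_pos h3]
        refine ⟨hr1 t h3, ?_⟩
        rw [← BB_congr hsame]
        exact hr2 t h3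
      · have h3 : ¬ (t ∈ C.T ∧ C.rk t = N) := fun h => hN h.2
        simp only [if_neg h3]
        have h4 := hg t ht (by omega)
        refine ⟨h4.1, ?_⟩
        rw [← BB_congr hsame]
        exact h4.2
  obtain ⟨g, hg⟩ := key ((univ.sup C.rk) + 1)
  exact ⟨g, fun t ht => hg t ht (Nat.lt_succ_of_le (le_sup (f := C.rk) (mem_univ t)))⟩

end

section
variable {top : V → V} (hC : C.Good top)
include hC

omit hC in
lemma PC_disjoint {c c' : V} (hne : c ≠ c') : Disjoint (C.PC c) (C.PC c') := by
  rw [disjoint_left]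
  intro e h1 h2
  obtain ⟨_, _, h3, h4⟩ := mem_PC.mp h1
  obtain ⟨_, _, h5, h6⟩ := mem_PC.mp h2
  rcases h4 with ⟨a, b⟩ | ⟨a, b⟩ <;> rcases h6 with ⟨a', b'⟩ | ⟨a', b'⟩
  · exact hne (a.symm.trans a')
  · have h7 : c = C.par c' := a.symm.trans a'
    have h8 : C.par c = c' := b.symm.trans b'
    rw [h8] at h3
    rw [← h7] at h5
    omega
  · have h7 : C.par c = c' := a.symm.trans a'
    have h8 : c = C.par c' := b.symm.trans b'
    rw [h7] at h3
    rw [← h8] at h5
    omega
  · exact hne (b.symm.trans b')

omit hC in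
/-- The owner of a copy in a parent class. -/
lemma owner_low {w : V} {e : E} (h : e ∈ C.PC w) :
    C.owner top e = if C.Up w then w else top (C.par w) := by
  obtain ⟨h1, h2, h3, h4⟩ := mem_PC.mp h
  unfold owner
  rcases h4 with ⟨a, b⟩ | ⟨a, b⟩
  · rw [a, b, if_neg h1, if_neg h2, if_pos h3]
  · have h5 : ¬ C.rk (C.par w) < C.rk w := by omega
    rw [a, b, if_neg h2, if_neg h1, if_neg h5]

omit hC in
lemma owner_up {w : V} {e : E} (h : e ∈ C.PC w) (hU : C.Up w) : C.owner top e = w := by
  rw [owner_low h, if_pos hU]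

omit hC in
lemma owner_BB {g : V → V} {t r : V} {e : E} (hr : r ∈ C.R) (h : e ∈ C.BB top g t r) :
    C.owner top e = t := by
  rcases mem_BB.mp h with ⟨x, hx, hxt, hJ⟩ | ⟨c, hc, _, he⟩
  · unfold owner
    rcases hJ with ⟨a, b⟩ | ⟨a, b⟩
    · rw [a, b, if_neg hx, if_pos hr]
      exact hxt
    · rw [a, b, if_pos hr]
      exact hxt
  · obtain ⟨h1, _, _, h4⟩ := mem_Ch.mp hc
    rw [owner_low he, if_neg (mem_T.mp h1).2]
    exact h4

omit hC in
/-- The choice of the tree edge of a cluster. -/
lemma exists_select {g : V → V} {t r : V} (hne : (C.BB top g t r).Nonempty) :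
    ∃ e ∈ C.BB top g t r, ∀ c ∈ C.Ch top t, g c = r →
      (C.BB top g t r).card < 2 * (C.PC c).card → e ∈ C.PC c := by
  have hsub : ∀ c ∈ C.Ch top t, g c = r → C.PC c ⊆ C.BB top g t r := by
    intro c hc hr e he
    exact mem_BB.mpr (Or.inr ⟨c, hc, hr, he⟩)
  by_cases hex : ∃ c ∈ C.Ch top t, g c = r ∧ (C.BB top g t r).card < 2 * (C.PC c).card
  · obtain ⟨c, hc, hr, hlt⟩ := hex
    have hpos : (C.PC c).Nonempty := by
      apply card_pos.mp
      omega
    obtain ⟨e, he⟩ := hpos
    refine ⟨e, hsub c hc hr he, ?_⟩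
    intro c' hc' hr' hlt'
    by_cases hcc : c' = c
    · rw [hcc]
      exact he
    · exfalso
      have hd : Disjoint (C.PC c') (C.PC c) := PC_disjoint hcc
      have h1 : (C.PC c').card + (C.PC c).card ≤ (C.BB top g t r).card := by
        rw [← card_union_of_disjoint hd]
        exact card_le_card (union_subset (hsub c' hc' hr') (hsub c hc hr))
      omega
  · push Not at hex
    obtain ⟨e, he⟩ := hne
    refine ⟨e, he, ?_⟩
    intro c hc hr hlt
    exact absurd hlt (not_lt.mpr (hex c hc hr))

/-- The number of thick classes in the cluster of `t` that cross `S`. -/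
noncomputable def th (C : FCtx V E) (top : V → V) (S : Set V) (t : V) : ℕ :=
  ((univ : Finset V).filter (fun w => w ∉ C.R ∧ top w = t ∧ C.Up w ∧ ¬ (w ∈ S ↔ C.par w ∈ S))).card

/-- The flag of a cluster: its top and its root lie on different sides. -/
noncomputable def flag (g : V → V) (S : Set V) (c : V) : ℕ := if (c ∈ S ↔ g c ∈ S) then 0 else 1

omit hC in
lemma crosses_iff {G : Multigraph V E} {S : Set V} {e : E} {a b : V} (h : G.Joins e a b) :
    G.Crosses S e ↔ ¬ (a ∈ S ↔ b ∈ S) := by
  unfold Multigraph.Crosses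
  rcases h with ⟨h1, h2⟩ | ⟨h1, h2⟩
  · rw [h1, h2]
    tauto
  · rw [h1, h2]
    tauto

/-- No thick class of the cluster crosses: the cluster lies on one side. -/
lemma uncut {S : Set V} {t : V} (h0 : th C top S t = 0) :
    ∀ x, x ∉ C.R → top x = t → (x ∈ S ↔ t ∈ S) := by
  apply up_ind hC.hk
  intro x ih hx hxt
  by_cases hU : C.Up x
  · have h1 := (up_facts hC.hk hU).1
    have h2 : top (C.par x) = t := by rw [← top_up hC hU]; exact hxt
    have h3 := ih hU h1 h2
    have h4 : (x ∈ S ↔ C.par x ∈ S) := by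
      by_contra hcon
      have : x ∈ univ.filter (fun w => w ∉ C.R ∧ top w = t ∧ C.Up w ∧ ¬ (w ∈ S ↔ C.par w ∈ S)) :=
        mem_filter.mpr ⟨mem_univ _, hx, hxt, hU, hcon⟩
      have h5 : (univ.filter (fun w => w ∉ C.R ∧ top w = t ∧ C.Up w ∧ ¬ (w ∈ S ↔ C.par w ∈ S))).card = 0 := h0
      rw [card_eq_zero] at h5
      rw [h5] at this
      exact absurd this (notMem_empty _)
    exact h4.trans h3
  · have h1 : x = t := by
      rw [← hxt]
      exact (top_not_up hC hU).symm
    rw [h1]

/-- The local inequality at a cluster. -/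
lemma loc {g : V → V} {t : V} {e0 : E} (S : Set V)
    (ht : t ∈ C.T) (hgt : 3 * C.k ≤ 4 * C.R.card * (C.BB top g t (g t)).card)
    (he0 : e0 ∈ C.BB top g t (g t))
    (hsel : ∀ c ∈ C.Ch top t, g c = g t →
      (C.BB top g t (g t)).card < 2 * (C.PC c).card → e0 ∈ C.PC c) :
    C.k * ((if C.G.Crosses S e0 then 1 else 0) + flag g S t) ≤
      C.k * ∑ c ∈ C.Ch top t, flag g S c +
        6 * C.R.card * ((C.BB top g t (g t)).filter (fun e => C.G.Crosses S e)).card +
        2 * C.k * th C top S t := by
  classical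
  have hle2 : (if C.G.Crosses S e0 then 1 else 0) + flag g S t ≤ 2 := by
    unfold flag
    split_ifs <;> omega
  by_cases hth : th C top S t = 0
  · have hunc := uncut hC hth
    set r := g t with hr
    set BBt := C.BB top g t r with hBBt
    set X := (BBt.filter (fun e => C.G.Crosses S e)).card with hX
    -- members of the parent side of a child
    have hpar : ∀ c ∈ C.Ch top t, (C.par c ∈ S ↔ t ∈ S) := by
      intro c hc
      obtain ⟨_, _, h3, h4⟩ := mem_Ch.mp hc
      exact hunc _ h3 h4
    have hflag1 : ∀ c ∈ C.Ch top t, flag g S c = 1 → 1 ≤ ∑ c' ∈ C.Ch top t, flag g S c' := by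
      intro c hc h1
      have h2 : flag g S c ≤ ∑ c' ∈ C.Ch top t, flag g S c' :=
        single_le_sum (f := fun c' => flag g S c') (fun _ _ => Nat.zero_le _) hc
      omega
    by_cases hf : t ∈ S ↔ r ∈ S
    · -- the cluster is on the side of its root
      have hf0 : flag g S t = 0 := by
        unfold flag
        rw [if_pos hf]
      by_cases hcr : C.G.Crosses S e0
      · rcases mem_BB.mp he0 with ⟨x, hx, hxt, hJ⟩ | ⟨c, hc, hcg, hePC⟩
        · exfalso
          have h1 := (crosses_iff hJ).mp hcr
          exact h1 ((hunc x hx hxt).trans hf)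
        · obtain ⟨_, _, _, hJ⟩ := mem_PC.mp hePC
          have h1 := (crosses_iff hJ).mp hcr
          have h2 : flag g S c = 1 := by
            unfold flag
            rw [hcg]
            rw [if_neg]
            intro h3
            exact h1 (h3.trans (hf.symm.trans (hpar c hc).symm))
          have h3 := hflag1 c hc h2
          rw [hf0, if_pos hcr]
          have h4 : C.k * (1 + 0) ≤ C.k * ∑ c ∈ C.Ch top t, flag g S c :=
            Nat.mul_le_mul_left _ h3
          omega
      · rw [hf0, if_neg hcr]
        simp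
    · -- the cluster is on the other side
      have hf1 : flag g S t = 1 := by
        unfold flag
        rw [if_neg hf]
      set Wr := (C.Ch top t).filter (fun c => g c = r ∧ (c ∈ S ↔ t ∈ S)) with hWr
      have hWsub : Wr ⊆ C.Ch top t := filter_subset _ _
      have hWflag : ∀ c ∈ Wr, flag g S c = 1 := by
        intro c hc
        obtain ⟨_, h2, h3⟩ := mem_filter.mp hc
        unfold flag
        rw [h2, if_neg]
        intro h4
        exact hf (h3.symm.trans h4)
      -- the bundle splits
      have hsplit : BBt ⊆ BBt.filter (fun e => C.G.Crosses S e) ∪ Wr.biUnion C.PC := by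
        intro e he
        by_cases hce : C.G.Crosses S e
        · exact mem_union_left _ (mem_filter.mpr ⟨he, hce⟩)
        · apply mem_union_right
          rcases mem_BB.mp he with ⟨x, hx, hxt, hJ⟩ | ⟨c, hc, hcg, hePC⟩
          · exfalso
            apply hce
            apply (crosses_iff hJ).mpr
            intro h1
            exact hf ((hunc x hx hxt).symm.trans h1)
          · obtain ⟨_, _, _, hJ⟩ := mem_PC.mp hePC
            have h1 : (c ∈ S ↔ C.par c ∈ S) := by
              by_contra hcon
              exact hce ((crosses_iff hJ).mpr hcon)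
            exact mem_biUnion.mpr ⟨c, mem_filter.mpr ⟨hc, hcg, h1.trans (hpar c hc)⟩, hePC⟩
      have hcardB : BBt.card ≤ X + ∑ c ∈ Wr, (C.PC c).card := by
        calc BBt.card ≤ _ := card_le_card hsplit
          _ ≤ _ := card_union_le _ _
          _ ≤ _ := Nat.add_le_add_left card_biUnion_le _
      by_cases h2X : BBt.card ≤ 2 * X
      · have h3 : 4 * C.R.card * BBt.card ≤ 8 * (C.R.card * X) := by
          calc 4 * C.R.card * BBt.card ≤ 4 * C.R.card * (2 * X) := Nat.mul_le_mul_left _ h2X
            _ = _ := by ring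
        have h4 : 3 * C.k ≤ 8 * (C.R.card * X) := hgt.trans h3
        have h5 : 2 * C.k ≤ 6 * C.R.card * X := by
          have : 6 * C.R.card * X = 6 * (C.R.card * X) := by ring
          rw [this]
          omega
        calc C.k * ((if C.G.Crosses S e0 then 1 else 0) + flag g S t)
            ≤ C.k * 2 := Nat.mul_le_mul_left _ hle2
          _ = 2 * C.k := by ring
          _ ≤ 6 * C.R.card * X := h5
          _ ≤ _ := by omega
      · -- the non crossing part is more than half of the bundle
        have h3 : BBt.card < 2 * ∑ c ∈ Wr, (C.PC c).card := by omega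
        by_cases hW2 : 2 ≤ Wr.card
        · have h4 : 2 ≤ ∑ c ∈ C.Ch top t, flag g S c := by
            calc 2 ≤ Wr.card := hW2
              _ = ∑ c ∈ Wr, flag g S c := by
                rw [sum_congr rfl hWflag]
                simp
              _ ≤ _ := sum_le_sum_of_subset hWsub
          calc C.k * ((if C.G.Crosses S e0 then 1 else 0) + flag g S t)
              ≤ C.k * ∑ c ∈ C.Ch top t, flag g S c :=
                Nat.mul_le_mul_left _ (hle2.trans h4)
            _ ≤ _ := by omega
        · have hWne : Wr.Nonempty := by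
            by_contra hcon
            rw [not_nonempty_iff_eq_empty] at hcon
            rw [hcon] at h3
            simp at h3
          have hW1 : Wr.card = 1 := by
            have := card_pos.mpr hWne
            omega
          obtain ⟨c1, hc1⟩ := card_eq_one.mp hW1
          have hc1W : c1 ∈ Wr := by
            rw [hc1]
            exact mem_singleton_self _
          rw [hc1, sum_singleton] at h3
          obtain ⟨hc1Ch, hc1g, hc1S⟩ := mem_filter.mp hc1W
          have he1 := hsel c1 hc1Ch hc1g h3
          obtain ⟨_, _, _, hJ⟩ := mem_PC.mp he1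
          have hnc : ¬ C.G.Crosses S e0 := by
            intro hcr
            exact (crosses_iff hJ).mp hcr (hc1S.trans (hpar c1 hc1Ch).symm)
          have h4 := hflag1 c1 hc1Ch (hWflag c1 hc1W)
          rw [if_neg hnc, hf1]
          have h5 : C.k * (0 + 1) ≤ C.k * ∑ c ∈ C.Ch top t, flag g S c :=
            Nat.mul_le_mul_left _ (by omega)
          omega
  · have h1 : 1 ≤ th C top S t := Nat.one_le_iff_ne_zero.mpr hth
    have h2 : 2 * C.k * 1 ≤ 2 * C.k * th C top S t := Nat.mul_le_mul_left _ h1
    have h3 : C.k * ((if C.G.Crosses S e0 then 1 else 0) + flag g S t) ≤ C.k * 2 :=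
      Nat.mul_le_mul_left _ hle2
    have h4 : C.k * 2 = 2 * C.k * 1 := by ring
    omega

end

/-- The forest rooted in `R`, with its estimate. -/
theorem base_forest {top : V → V} (hC : C.Good top) :
    ∃ (F : Finset E) (root : V → V), RootedForest C.G (C.R)ᶜ C.R F root ∧
      ∀ S : Set V, C.k * C.G.cutCount F S ≤ (12 + 6 * C.R.card) * C.G.cutCount univ S := by
  classical
  by_cases hH : ∃ w, w ∉ C.R
  swap
  · push Not at hH
    refine ⟨∅, id, ⟨by simp, ?_, ?_, by simp, by simp, ?_⟩, ?_⟩
    · have : (C.R)ᶜ = ∅ := by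
        ext x
        simp [hH x]
      rw [this]
      simp
    · intro v hv
      exact absurd (hH v) (mem_compl.mp hv)
    · intro v
      exact Relation.ReflTransGen.refl
    · intro S
      simp [Multigraph.cutCount]
  have hk := hC.hk
  -- a copy exists
  obtain ⟨w0, hw0⟩ := hH
  haveI : Nonempty E := by
    have h1 := hC.hcut {w0} (singleton_nonempty _) (by
      intro h
      obtain ⟨r0, hr0⟩ := hC.hR
      have : r0 ∈ ({w0} : Finset V) := h ▸ mem_univ r0
      rw [mem_singleton] at this
      exact hw0 (this ▸ hr0))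
    have h2 : 0 < C.G.cutCount univ (({w0} : Finset V) : Set V) := by omega
    unfold Multigraph.cutCount at h2
    obtain ⟨e, _⟩ := card_pos.mp h2
    exact ⟨e⟩
  obtain ⟨g, hg⟩ := exists_g hC
  have hne : ∀ t, t ∈ C.T → (C.BB top g t (g t)).Nonempty := by
    intro t ht
    apply card_pos.mp
    by_contra h0
    have h1 : (C.BB top g t (g t)).card = 0 := by omega
    have h2 := (hg t ht).2
    rw [h1] at h2
    omega
  have hsel0 : ∀ t, t ∈ C.T → ∃ e ∈ C.BB top g t (g t), ∀ c ∈ C.Ch top t, g c = g t →
      (C.BB top g t (g t)).card < 2 * (C.PC c).card → e ∈ C.PC c :=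
    fun t ht => exists_select (hne t ht)
  choose! e0 he0 hsel using hsel0
  have hpe0 : ∀ w, C.Up w → ∃ e, e ∈ C.PC w := fun w hw => (up_facts hk hw).2.2
  choose! pe hpe using hpe0
  set ed : V → E := fun w => if C.Up w then pe w else e0 w with hed
  have hedU : ∀ w, C.Up w → ed w = pe w := fun w h => if_pos h
  have hedT : ∀ w, ¬ C.Up w → ed w = e0 w := fun w h => if_neg h
  have howner : ∀ w, w ∉ C.R → C.owner top (ed w) = w := by
    intro w hw
    by_cases hU : C.Up w
    · rw [hedU w hU]
      exact owner_up (hpe w hU) hU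
    · rw [hedT w hU]
      have ht : w ∈ C.T := mem_T.mpr ⟨hw, hU⟩
      exact owner_BB (hg w ht).1 (he0 w ht)
  set F : Finset E := (C.R)ᶜ.image ed with hFdef
  have hedF : ∀ w, w ∉ C.R → ed w ∈ F := fun w hw => mem_image_of_mem _ (mem_compl.mpr hw)
  set root : V → V := fun v => if v ∈ C.R then v else g (top v) with hroot
  have hrootR : ∀ v, v ∈ C.R → root v = v := fun v h => if_pos h
  have hrootH : ∀ v, v ∉ C.R → root v = g (top v) := fun v h => if_neg h
  -- connections inside a cluster
  have hca : ∀ w, w ∉ C.R → C.G.Conn F w (top w) := by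
    apply up_ind hk
    intro w ih hw
    by_cases hU : C.Up w
    · have h1 := (up_facts hk hU).1
      have hJ := (mem_PC.mp (hpe w hU)).2.2.2
      have h2 : C.G.Conn F w (C.par w) :=
        Relation.ReflTransGen.single ⟨pe w, by rw [← hedU w hU]; exact hedF w hw, hJ⟩
      rw [top_up hC hU]
      exact h2.trans (ih hU h1)
    · rw [top_not_up hC hU]
      exact Relation.ReflTransGen.refl
  -- from a top to its root
  have hcb : ∀ n t, C.rk t < n → t ∈ C.T → C.G.Conn F t (g t) := by
    intro n
    induction n with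
    | zero => intro t h; exact absurd h (Nat.not_lt_zero _)
    | succ n ih =>
      intro t hlt ht
      have hfe : e0 t ∈ F := by
        rw [← hedT t (mem_T.mp ht).2]
        exact hedF t (mem_T.mp ht).1
      rcases mem_BB.mp (he0 t ht) with ⟨x, hx, hxt, hJ⟩ | ⟨c, hc, hcg, hePC⟩
      · have h1 := hca x hx
        rw [hxt] at h1
        have h2 : C.G.Conn F x (g t) := Relation.ReflTransGen.single ⟨e0 t, hfe, hJ⟩
        exact (Conn.symm h1).trans h2
      · obtain ⟨hcT, _, h3, h4⟩ := mem_Ch.mp hc
        have hJ := (mem_PC.mp hePC).2.2.2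
        have h1 := hca _ h3
        rw [h4] at h1
        have h2 : C.G.Conn F (C.par c) c := Relation.ReflTransGen.single ⟨e0 t, hfe, hJ.symm⟩
        have hlt2 := rk_child hC hc
        have h5 := ih c (by omega) hcT
        rw [hcg] at h5
        exact (Conn.symm h1).trans (h2.trans h5)
  have hcb' : ∀ t, t ∈ C.T → C.G.Conn F t (g t) :=
    fun t ht => hcb _ t (Nat.lt_succ_of_le (le_sup (f := C.rk) (mem_univ t))) ht
  -- an endpoint outside `R`
  have hat : ∀ {e : E} {a b : V}, C.G.Joins e a b → a ∉ C.R → e ∈ C.G.edgesAt (C.R)ᶜ := by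
    intro e a b hJ ha
    simp only [Multigraph.edgesAt, mem_filter, mem_univ, true_and, mem_compl]
    rcases hJ with ⟨h1, _⟩ | ⟨_, h1⟩
    · exact Or.inl (h1 ▸ ha)
    · exact Or.inr (h1 ▸ ha)
  have hsame : ∀ {e : E} {a b : V}, C.G.Joins e a b → root a = root b →
      root (C.G.fst e) = root (C.G.snd e) := by
    intro e a b hJ h
    rcases hJ with ⟨h1, h2⟩ | ⟨h1, h2⟩
    · rw [h1, h2]
      exact h
    · rw [h1, h2]
      exact h.symm
  refine ⟨F, root, ⟨?_, ?_, ?_, ?_, ?_, ?_⟩, ?_⟩
  · intro e he
    obtain ⟨w, hw, rfl⟩ := mem_image.mp he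
    have hw' := mem_compl.mp hw
    by_cases hU : C.Up w
    · rw [hedU w hU]
      exact hat (mem_PC.mp (hpe w hU)).2.2.2 hw'
    · rw [hedT w hU]
      have ht : w ∈ C.T := mem_T.mpr ⟨hw', hU⟩
      rcases mem_BB.mp (he0 w ht) with ⟨x, hx, _, hJ⟩ | ⟨c, hc, _, hePC⟩
      · exact hat hJ hx
      · exact hat (mem_PC.mp hePC).2.2.2 (mem_PC.mp hePC).1
  · rw [hFdef, card_image_of_injOn]
    intro a ha b hb hab
    have ha' := mem_compl.mp ha
    have hb' := mem_compl.mp hb
    rw [← howner a ha', ← howner b hb', hab]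
  · intro v hv
    have hv' := mem_compl.mp hv
    rw [hrootH v hv']
    exact (hg _ (top_mem_T hC hv')).1
  · intro v hv
    have hv' : v ∈ C.R := by
      by_contra h
      exact hv (mem_compl.mpr h)
    exact hrootR v hv'
  · intro e he
    obtain ⟨w, hw, rfl⟩ := mem_image.mp he
    have hw' := mem_compl.mp hw
    by_cases hU : C.Up w
    · rw [hedU w hU]
      have hJ := (mem_PC.mp (hpe w hU)).2.2.2
      refine hsame hJ ?_
      rw [hrootH w hw', hrootH _ (up_facts hk hU).1, top_up hC hU]
    · rw [hedT w hU]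
      have ht : w ∈ C.T := mem_T.mpr ⟨hw', hU⟩
      rcases mem_BB.mp (he0 w ht) with ⟨x, hx, hxt, hJ⟩ | ⟨c, hc, hcg, hePC⟩
      · refine hsame hJ ?_
        rw [hrootH x hx, hxt, hrootR _ (hg w ht).1]
      · obtain ⟨hcT, _, h3, h4⟩ := mem_Ch.mp hc
        obtain ⟨hcR, hcU⟩ := mem_T.mp hcT
        have hJ := (mem_PC.mp hePC).2.2.2
        refine hsame hJ ?_
        rw [hrootH c hcR, top_not_up hC hcU, hcg, hrootH _ h3, h4]
  · intro v
    by_cases hv : v ∈ C.R
    · rw [hrootR v hv]
      exact Relation.ReflTransGen.refl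
    · rw [hrootH v hv]
      exact (hca v hv).trans (hcb' _ (top_mem_T hC hv))
  · -- the estimate
    intro S
    set A1 : Finset V := C.T.filter (fun t => C.G.Crosses S (e0 t)) with hA1
    set Θ : Finset V := univ.filter (fun w => w ∉ C.R ∧ C.Up w ∧ ¬ (w ∈ S ↔ C.par w ∈ S)) with hΘ
    have hstep1 : C.G.cutCount F S ≤ A1.card + Θ.card := by
      have hsub : F.filter (fun e => C.G.Crosses S e) ⊆ (A1 ∪ Θ).image ed := by
        intro e he
        obtain ⟨he1, he2⟩ := mem_filter.mp he
        obtain ⟨w, hw, rfl⟩ := mem_image.mp he1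
        have hw' := mem_compl.mp hw
        refine mem_image_of_mem _ ?_
        by_cases hU : C.Up w
        · apply mem_union_right
          rw [hedU w hU] at he2
          have hJ := (mem_PC.mp (hpe w hU)).2.2.2
          exact mem_filter.mpr ⟨mem_univ _, hw', hU, (crosses_iff hJ).mp he2⟩
        · apply mem_union_left
          rw [hedT w hU] at he2
          exact mem_filter.mpr ⟨mem_T.mpr ⟨hw', hU⟩, he2⟩
      calc C.G.cutCount F S ≤ ((A1 ∪ Θ).image ed).card := card_le_card hsub
        _ ≤ (A1 ∪ Θ).card := card_image_le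
        _ ≤ _ := card_union_le _ _
    -- the sum of the local inequalities
    have hloc : ∀ t ∈ C.T, C.k * ((if C.G.Crosses S (e0 t) then 1 else 0) + flag g S t) ≤
        C.k * ∑ c ∈ C.Ch top t, flag g S c +
          6 * C.R.card * ((C.BB top g t (g t)).filter (fun e => C.G.Crosses S e)).card +
          2 * C.k * th C top S t :=
      fun t ht => loc hC S ht (hg t ht).2 (he0 t ht) (hsel t ht)
    have hsum := sum_le_sum hloc
    have hA1card : ∑ t ∈ C.T, (if C.G.Crosses S (e0 t) then 1 else 0) = A1.card := by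
      rw [hA1, card_filter]
    have hchild : ∑ t ∈ C.T, ∑ c ∈ C.Ch top t, flag g S c ≤ ∑ c ∈ C.T, flag g S c := by
      rw [← sum_biUnion]
      · apply sum_le_sum_of_subset
        intro c hc
        obtain ⟨t, _, h2⟩ := mem_biUnion.mp hc
        exact (mem_Ch.mp h2).1
      · intro t _ t' _ hne' 
        apply disjoint_left.mpr
        intro c h1 h2
        apply hne'
        rw [← (mem_Ch.mp h1).2.2.2, ← (mem_Ch.mp h2).2.2.2]
    have hthsum : ∑ t ∈ C.T, th C top S t = Θ.card := by
      have h1 : Θ.card = ∑ t ∈ C.T, (Θ.filter (fun w => top w = t)).card :=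
        card_eq_sum_card_fiberwise (fun w hw => by
          have hw1 := (mem_filter.mp hw).2.1
          exact top_mem_T hC hw1)
      rw [h1]
      apply sum_congr rfl
      intro t _
      unfold th
      congr 1
      ext w
      simp only [hΘ, mem_filter, mem_univ, true_and]
      constructor
      · rintro ⟨h1, h2, h3, h4⟩
        exact ⟨⟨h1, h3, h4⟩, h2⟩
      · rintro ⟨⟨h1, h3, h4⟩, h2⟩
        exact ⟨h1, h2, h3, h4⟩
    -- the disjoint unions
    set Y : Finset E := C.T.biUnion (fun t => (C.BB top g t (g t)).filter (fun e => C.G.Crosses S e)) with hY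
    set Z : Finset E := Θ.biUnion C.PC with hZ
    have hYcard : Y.card = ∑ t ∈ C.T, ((C.BB top g t (g t)).filter (fun e => C.G.Crosses S e)).card := by
      rw [hY, card_biUnion]
      intro t ht t' ht' hne'
      apply disjoint_left.mpr
      intro e h1 h2
      apply hne'
      rw [← owner_BB (top := top) (hg t ht).1 (mem_filter.mp h1).1,
        ← owner_BB (top := top) (hg t' ht').1 (mem_filter.mp h2).1]
    have hZcard : Z.card = ∑ w ∈ Θ, (C.PC w).card := by
      rw [hZ, card_biUnion]
      intro w _ w' _ hne'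
      exact PC_disjoint hne'
    have hΘZ : C.k * Θ.card ≤ 4 * Z.card := by
      rw [hZcard, mul_sum, mul_comm, ← smul_eq_mul, ← sum_const]
      apply sum_le_sum
      intro w hw
      exact (mem_filter.mp hw).2.2.1.2
    have hYZ : Y.card + Z.card ≤ C.G.cutCount univ S := by
      have hd : Disjoint Y Z := by
        apply disjoint_left.mpr
        intro e h1 h2
        obtain ⟨t, ht, h3⟩ := mem_biUnion.mp h1
        obtain ⟨w, hw, h4⟩ := mem_biUnion.mp h2
        have h5 := owner_BB (top := top) (hg t ht).1 (mem_filter.mp h3).1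
        have hU := (mem_filter.mp hw).2.2.1
        have h6 := owner_up (top := top) h4 hU
        have h7 : t = w := h5.symm.trans h6
        exact (mem_T.mp ht).2 (h7 ▸ hU)
      rw [← card_union_of_disjoint hd]
      apply card_le_card
      intro e he
      refine mem_filter.mpr ⟨mem_univ _, ?_⟩
      rcases mem_union.mp he with h1 | h1
      · obtain ⟨t, _, h3⟩ := mem_biUnion.mp h1
        exact (mem_filter.mp h3).2
      · obtain ⟨w, hw, h4⟩ := mem_biUnion.mp h1
        exact (crosses_iff (mem_PC.mp h4).2.2.2).mpr (mem_filter.mp hw).2.2.2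
    -- the arithmetic
    have hmain : C.k * A1.card ≤ 6 * C.R.card * Y.card + 2 * C.k * Θ.card := by
      have h1 : ∑ t ∈ C.T, C.k * ((if C.G.Crosses S (e0 t) then 1 else 0) + flag g S t)
          = C.k * A1.card + C.k * ∑ t ∈ C.T, flag g S t := by
        rw [← mul_sum, sum_add_distrib, hA1card, mul_add]
      have h2 : ∑ t ∈ C.T, (C.k * ∑ c ∈ C.Ch top t, flag g S c +
            6 * C.R.card * ((C.BB top g t (g t)).filter (fun e => C.G.Crosses S e)).card +
            2 * C.k * th C top S t)
          = C.k * ∑ t ∈ C.T, ∑ c ∈ C.Ch top t, flag g S c +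
            6 * C.R.card * Y.card + 2 * C.k * Θ.card := by
        rw [sum_add_distrib, sum_add_distrib, ← mul_sum, ← mul_sum, ← mul_sum, hthsum, hYcard]
      rw [h1, h2] at hsum
      have h3 : C.k * ∑ t ∈ C.T, ∑ c ∈ C.Ch top t, flag g S c ≤ C.k * ∑ c ∈ C.T, flag g S c :=
        Nat.mul_le_mul_left _ hchild
      omega
    have h5 : (12 + 6 * C.R.card) * (Y.card + Z.card)
        = 6 * C.R.card * Y.card + 12 * Z.card + (12 * Y.card + 6 * (C.R.card * Z.card)) := by ring
    have h6 : C.k * C.G.cutCount F S ≤ C.k * A1.card + C.k * Θ.card := by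
      rw [← mul_add]
      exact Nat.mul_le_mul_left _ hstep1
    have h7 : 2 * C.k * Θ.card = 2 * (C.k * Θ.card) := by ring
    have h8 : (12 + 6 * C.R.card) * (Y.card + Z.card) ≤ (12 + 6 * C.R.card) * C.G.cutCount univ S :=
      Nat.mul_le_mul_left _ hYZ
    omega

end FCtx

/-- Merging the trees of the roots one by one along arbitrary copies. -/
theorem merge_roots [Fintype V] [Fintype E] (G : Multigraph V E) {k : ℕ} (hk : 1 ≤ k)
    (hcut : ∀ P : Finset V, P.Nonempty → P ≠ univ → k ≤ G.cutCount univ (P : Set V)) :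
    ∀ (n : ℕ) (R : Finset V) (F : Finset E) (root : V → V), R.card = n + 1 →
      RootedForest G Rᶜ R F root →
      ∃ T : Finset E, G.IsSpanningTree T ∧ ∀ S : Set V, G.cutCount T S ≤ G.cutCount F S + n := by
  intro n
  induction n with
  | zero =>
    intro R F root hR hF
    obtain ⟨r, hr⟩ := card_eq_one.mp (by simpa using hR)
    have hrR : r ∈ R := by rw [hr]; exact mem_singleton_self _
    have hroot : ∀ x, root x = r := by
      intro x
      by_cases hx : x ∈ R
      · rw [hF.rootOut x (fun h => (mem_compl.mp h) hx)]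
        rw [hr] at hx
        exact mem_singleton.mp hx
      · have := hF.rootH x (mem_compl.mpr hx)
        rw [hr] at this
        exact mem_singleton.mp this
    refine ⟨F, ⟨?_, ?_⟩, fun S => by simp⟩
    · rw [hF.card, card_compl]
      have h1 : R.card ≤ Fintype.card V := card_le_univ _
      omega
    · intro u v
      have h1 := hF.conn u
      have h2 := hF.conn v
      rw [hroot] at h1 h2
      exact h1.trans (Conn.symm h2)
  | succ n ih =>
    intro R F root hR hF
    have hRpos : 0 < R.card := by omega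
    obtain ⟨r, hr⟩ := card_pos.mp hRpos
    have hrootR : ∀ x, x ∈ R → root x = x := fun x hx =>
      hF.rootOut x (fun h => (mem_compl.mp h) hx)
    have hrootMem : ∀ x, root x ∈ R := by
      intro x
      by_cases hx : x ∈ R
      · rw [hrootR x hx]
        exact hx
      · exact hF.rootH x (mem_compl.mpr hx)
    obtain ⟨r2, hr2, hr2r⟩ : ∃ r2 ∈ R, r2 ≠ r := by
      have h1 : 1 < R.card := by omega
      exact exists_mem_ne h1 r
    set W : Finset V := univ.filter (fun x => root x = r) with hW
    have hrW : r ∈ W := mem_filter.mpr ⟨mem_univ _, hrootR r hr⟩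
    have hWne : W ≠ univ := by
      intro h
      have : r2 ∈ W := h ▸ mem_univ r2
      have h2 := (mem_filter.mp this).2
      rw [hrootR r2 hr2] at h2
      exact hr2r h2
    have hkW := hcut W ⟨r, hrW⟩ hWne
    have hpos : 0 < G.cutCount univ (W : Set V) := by omega
    unfold Multigraph.cutCount at hpos
    obtain ⟨e0, he0⟩ := card_pos.mp hpos
    have he0' := (mem_filter.mp he0).2
    obtain ⟨inn, out, hinn, hout, hJ⟩ : ∃ x y, x ∈ W ∧ y ∉ W ∧ G.Joins e0 x y := by
      unfold Multigraph.Crosses at he0'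
      simp only [mem_coe] at he0'
      rcases he0' with ⟨h1, h2⟩ | ⟨h1, h2⟩
      · exact ⟨_, _, h1, h2, Or.inl ⟨rfl, rfl⟩⟩
      · exact ⟨_, _, h2, h1, Or.inr ⟨rfl, rfl⟩⟩
    have hinnr : root inn = r := (mem_filter.mp hinn).2
    have houtr : root out ≠ r := fun h => hout (mem_filter.mpr ⟨mem_univ _, h⟩)
    set r1 := root out with hr1
    have hr1R : r1 ∈ R := hrootMem out
    set R' := R.erase r with hR'
    have hr1R' : r1 ∈ R' := mem_erase.mpr ⟨houtr, hr1R⟩
    have hR'card : R'.card = n + 1 := by
      rw [hR', card_erase_of_mem hr]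
      omega
    have hinnR' : inn ∉ R' := by
      intro h
      obtain ⟨h1, h2⟩ := mem_erase.mp h
      rw [hrootR inn h2] at hinnr
      exact h1 hinnr
    have hsub : Rᶜ ⊆ R'ᶜ := by
      intro x hx
      rw [mem_compl] at hx ⊢
      intro h
      exact hx (mem_erase.mp h).2
    have hmono : F ⊆ insert e0 F := subset_insert _ _
    have he0F : e0 ∉ F := by
      intro h
      have h1 := hF.edge e0 h
      rcases hJ with ⟨h2, h3⟩ | ⟨h2, h3⟩
      · rw [h2, h3, hinnr] at h1
        exact houtr h1.symm
      · rw [h2, h3, hinnr] at h1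
        exact houtr h1
    set root' : V → V := fun x => if root x = r then r1 else root x with hroot'
    have hrF : RootedForest G R'ᶜ R' (insert e0 F) root' := by
      refine ⟨?_, ?_, ?_, ?_, ?_, ?_⟩
      · intro e he
        rcases mem_insert.mp he with rfl | he
        · simp only [Multigraph.edgesAt, mem_filter, mem_univ, true_and, mem_compl]
          rcases hJ with ⟨h1, _⟩ | ⟨_, h1⟩
          · exact Or.inl (h1 ▸ hinnR')
          · exact Or.inr (h1 ▸ hinnR')
        · exact edgesAt_mono G hsub (hF.sub he)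
      · rw [card_insert_of_notMem he0F, hF.card, card_compl, card_compl]
        have h1 : R.card ≤ Fintype.card V := card_le_univ _
        omega
      · intro x _
        by_cases h : root x = r
        · simp only [hroot', if_pos h]
          exact hr1R'
        · simp only [hroot', if_neg h]
          exact mem_erase.mpr ⟨h, hrootMem x⟩
      · intro x hx
        have hx' : x ∈ R' := by
          by_contra h
          exact hx (mem_compl.mpr h)
        obtain ⟨h1, h2⟩ := mem_erase.mp hx'
        have h3 := hrootR x h2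
        simp only [hroot']
        rw [h3, if_neg h1]
      · intro e he
        rcases mem_insert.mp he with rfl | he
        · have h1 : root' inn = r1 := by simp only [hroot', if_pos hinnr]
          have h2 : root' out = r1 := if_neg houtr
          rcases hJ with ⟨h3, h4⟩ | ⟨h3, h4⟩
          · rw [h3, h4, h1, h2]
          · rw [h3, h4, h1, h2]
        · have h1 := hF.edge e he
          simp only [hroot', h1]
      · intro x
        by_cases h : root x = r
        · have h1 : root' x = r1 := by simp only [hroot', if_pos h]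
          rw [h1]
          have h2 : G.Conn (insert e0 F) x r := by
            have := hF.conn x
            rw [h] at this
            exact Conn.mono hmono this
          have h3 : G.Conn (insert e0 F) r inn := by
            have := hF.conn inn
            rw [hinnr] at this
            exact Conn.symm (Conn.mono hmono this)
          have h4 : G.Conn (insert e0 F) inn out :=
            Relation.ReflTransGen.single ⟨e0, mem_insert_self _ _, hJ⟩
          have h5 : G.Conn (insert e0 F) out r1 := Conn.mono hmono (hF.conn out)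
          exact (h2.trans h3).trans (h4.trans h5)
        · have h1 : root' x = root x := by simp only [hroot', if_neg h]
          rw [h1]
          exact Conn.mono hmono (hF.conn x)
    obtain ⟨T, hT, hTS⟩ := ih R' (insert e0 F) root' hR'card hrF
    refine ⟨T, hT, fun S => ?_⟩
    have h1 := hTS S
    have h2 := cutCount_insert_le G e0 F S
    split_ifs at h2 <;> omega

/-- The estimate for an apex set `X` with `G - X` a forest. -/
theorem exists_thin_of_apex [Fintype V] [Fintype E] [Nonempty V] (G : Multigraph V E) {k : ℕ}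
    (hk : 1 ≤ k) (hconn : G.EdgeConnected k) (X : Finset V) (par : V → V) (rk : V → ℕ)
    (hX : G.ForestOff X par rk) :
    ∃ T : Finset E, G.IsSpanningTree T ∧ ∀ S : Set V, S.Nonempty → S ≠ Set.univ →
      k * G.cutCount T S ≤ (7 * X.card + 18) * G.cutCount univ S := by
  have hcut : ∀ P : Finset V, P.Nonempty → P ≠ univ → k ≤ G.cutCount univ (P : Set V) := by
    intro P hP hP'
    apply hconn
    · exact hP
    · intro h
      apply hP'
      exact_mod_cast h
  obtain ⟨R, hRne, hRF, hRc⟩ : ∃ R : Finset V, R.Nonempty ∧ G.ForestOff R par rk ∧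
      7 * R.card + 11 ≤ 7 * X.card + 18 := by
    by_cases hne : X.Nonempty
    · exact ⟨X, hne, hX, by omega⟩
    · obtain ⟨v0⟩ := ‹Nonempty V›
      rw [not_nonempty_iff_eq_empty] at hne
      refine ⟨{v0}, singleton_nonempty _, ?_, ?_⟩
      · intro e _ _
        exact hX e (by rw [hne]; exact notMem_empty _) (by rw [hne]; exact notMem_empty _)
      · rw [hne]
        simp
  set C : FCtx V E := ⟨G, R, par, rk, k⟩ with hCdef
  have hk' : 1 ≤ C.k := hk
  obtain ⟨top, htop⟩ := FCtx.exists_top (C := C) hk'
  have hC : C.Good top := ⟨hk, hRne, hRF, hcut, htop⟩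
  obtain ⟨F, root, hF, hest⟩ := FCtx.base_forest hC
  have hRpos : 0 < R.card := card_pos.mpr hRne
  obtain ⟨n, hn⟩ : ∃ n, R.card = n + 1 := ⟨R.card - 1, by omega⟩
  obtain ⟨T, hT, hTS⟩ := merge_roots G hk hcut n R F root hn hF
  refine ⟨T, hT, fun S hS hS' => ?_⟩
  have h1 := hTS S
  have h2 : k * G.cutCount F S ≤ (12 + 6 * R.card) * G.cutCount univ S := hest S
  have h3 : k ≤ G.cutCount univ S := hconn S hS hS'
  have h4 : k * G.cutCount T S ≤ k * (G.cutCount F S + n) := Nat.mul_le_mul_left _ h1
  have h5 : k * n ≤ G.cutCount univ S * n := Nat.mul_le_mul_right _ h3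
  have h6 : (12 + 6 * R.card + n) * G.cutCount univ S ≤ (7 * X.card + 18) * G.cutCount univ S :=
    Nat.mul_le_mul_right _ (by omega)
  calc k * G.cutCount T S ≤ k * (G.cutCount F S + n) := h4
    _ = k * G.cutCount F S + k * n := by ring
    _ ≤ (12 + 6 * R.card) * G.cutCount univ S + G.cutCount univ S * n := Nat.add_le_add h2 h5
    _ = (12 + 6 * R.card + n) * G.cutCount univ S := by ring
    _ ≤ _ := h6

end Vale.Agent.Lib.P061
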