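import Vale.Agent.Lib.P061.Defs

namespace Vale.Agent.Lib.P061

open Classical

variable {V E : Type} [Fintype V]

/-- The simple graph underlying a set of copies. -/
def treeGraph (G : Multigraph V E) (T : Finset E) : SimpleGraph V where
  Adj a b := ∃ e ∈ T, (G.fst e = a ∧ G.snd e = b) ∨ (G.fst e = b ∧ G.snd e = a)
  symm := ⟨by
    rintro a b ⟨e, he, h⟩
    exact ⟨e, he, h.symm⟩⟩
  loopless := ⟨by
    rintro a ⟨e, _, h | h⟩
    · exact G.loopless e (h.1.trans h.2.symm)
    · exact G.loopless e (h.1.trans h.2.symm)⟩

lemma treeGraph_connected (G : Multigraph V E) (T : Finset E) (hT : G.IsSpanningTree T) :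
    (treeGraph G T).Connected := by
  obtain ⟨hc, hr⟩ := hT
  have hne : Nonempty V := by
    apply Fintype.card_pos_iff.mp
    omega
  refine { preconnected := ?_, nonempty := hne }
  intro u v
  have := hr u v
  induction this with
  | refl => exact SimpleGraph.Reachable.refl _
  | tail _ hbc ih => exact ih.trans (SimpleGraph.Adj.reachable hbc)

/-- The endpoints of a copy as an element of `Sym2`. -/
def ends (G : Multigraph V E) (e : E) : Sym2 V := s(G.fst e, G.snd e)

lemma edgeSet_subset (G : Multigraph V E) (T : Finset E) :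
    (treeGraph G T).edgeSet ⊆ ((T.image (ends G) : Finset (Sym2 V)) : Set (Sym2 V)) := by
  intro z hz
  induction z using Sym2.ind with
  | _ a b =>
    obtain ⟨e, he, h⟩ := (SimpleGraph.mem_edgeSet _).1 hz
    simp only [Finset.coe_image, Set.mem_image, Finset.mem_coe]
    refine ⟨e, he, ?_⟩
    rcases h with ⟨h1, h2⟩ | ⟨h1, h2⟩
    · simp [ends, h1, h2]
    · simp [ends, h1, h2, Sym2.eq_swap]

/-- A spanning tree uses no two copies with the same endpoints, and its underlying simple
graph is a tree. -/
lemma tree_facts (G : Multigraph V E) (T : Finset E) (hT : G.IsSpanningTree T) :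
    (treeGraph G T).IsTree ∧ Set.InjOn (ends G) (T : Set E) := by
  have hconn := treeGraph_connected G T hT
  have hcard := hconn.card_vert_le_card_edgeSet_add_one
  have hsub := edgeSet_subset G T
  have hfin : (treeGraph G T).edgeSet.Finite :=
    (Finset.finite_toSet (T.image (ends G))).subset hsub
  have h1 : Nat.card (treeGraph G T).edgeSet ≤ (T.image (ends G)).card := by
    have := Set.ncard_le_ncard hsub (Finset.finite_toSet _)
    rw [Set.ncard_coe_finset] at this
    rwa [_root_.Nat.card_coe_set_eq]
  have h2 : (T.image (ends G)).card ≤ T.card := Finset.card_image_le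
  have hV : Nat.card V = T.card + 1 := by
    rw [Nat.card_eq_fintype_card]; exact hT.1.symm
  have h3 : Nat.card (treeGraph G T).edgeSet = T.card := by omega
  have h4 : (T.image (ends G)).card = T.card := by omega
  refine ⟨?_, ?_⟩
  · rw [SimpleGraph.isTree_iff_connected_and_card]
    exact ⟨hconn, by omega⟩
  · exact Finset.card_image_iff.mp h4

/-- Every spanning tree is bipartite: there is a vertex 2-colouring making every copy of `T`
bichromatic. -/
lemma exists_colouring (G : Multigraph V E) (T : Finset E) (hT : G.IsSpanningTree T) :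
    ∃ c : V → Fin 2, ∀ e ∈ T, c (G.fst e) ≠ c (G.snd e) := by
  obtain ⟨htree, _⟩ := tree_facts G T hT
  obtain ⟨C⟩ := htree.isAcyclic.colorable_two
  refine ⟨C, fun e he => C.valid ?_⟩
  exact ⟨e, he, Or.inl ⟨rfl, rfl⟩⟩

end Vale.Agent.Lib.P061
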