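import Vale.Agent.Lib.P061.Bip

namespace Vale.Agent.Lib.P061

open Classical Finset

/-- Ordered pairs `i < j` of `Fin m`, the edges of the complete graph. -/
abbrev Pr (m : ℕ) := {q : Fin m × Fin m // q.1 < q.2}

/-- Edge copies of the graph `KP m r p k`: `r` copies of every pair of the `m` core vertices,
and `k` copies of the edge from the core vertex `0` to each of the `p` pendant vertices. -/
abbrev EdgeT (m r p k : ℕ) := (Pr (m + 1) × Fin r) ⊕ (Fin p × Fin k)

/-- The complete graph on `m + 1` core vertices with multiplicity `r`, with `p` pendant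
vertices, each joined to the core vertex `0` by `k` parallel copies. -/
def KP (m r p k : ℕ) : Multigraph (Fin (m + 1) ⊕ Fin p) (EdgeT m r p k) where
  fst
    | Sum.inl x => Sum.inl x.1.1.1
    | Sum.inr y => Sum.inl 0
  snd
    | Sum.inl x => Sum.inl x.1.1.2
    | Sum.inr y => Sum.inr y.1
  loopless := by
    rintro (x | y)
    · intro h
      have := Sum.inl.inj h
      exact absurd x.1.2 (by simp [this])
    · simp

/-- Number of pairs `i < j` separated by `A` equals `|A| * (m - |A|)`. -/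
lemma card_sep (m : ℕ) (A : Finset (Fin m)) :
    ((univ : Finset (Pr m)).filter
      (fun q => (q.1.1 ∈ A ∧ q.1.2 ∉ A) ∨ (q.1.1 ∉ A ∧ q.1.2 ∈ A))).card = A.card * (m - A.card) := by
  have hc : (Aᶜ).card = m - A.card := by simp [Finset.card_compl]
  rw [← hc, ← Finset.card_product]
  refine Finset.card_bij'
    (fun q _ => if q.1.1 ∈ A then (q.1.1, q.1.2) else (q.1.2, q.1.1))
    (fun a ha => if h : a.1 < a.2 then ⟨(a.1, a.2), h⟩ else
      ⟨(a.2, a.1), lt_of_le_of_ne (not_lt.mp h) (by
        intro he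
        have h1 := (Finset.mem_product.mp ha).1
        have h2 := (Finset.mem_product.mp ha).2
        rw [Finset.mem_compl] at h2
        have he' : a.2 = a.1 := he
        exact h2 (by rw [he']; exact h1))⟩)
    ?_ ?_ ?_ ?_
  · intro q hq
    have hq' := (Finset.mem_filter.mp hq).2
    rcases hq' with ⟨h1, h2⟩ | ⟨h1, h2⟩
    · simp [h1, h2]
    · simp [h1, h2]
  · intro a ha
    have h1 := (Finset.mem_product.mp ha).1
    have h2 := Finset.mem_compl.mp (Finset.mem_product.mp ha).2
    by_cases h : a.1 < a.2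
    · simp [h, h1, h2]
    · simp [h, h1, h2]
  · intro q hq
    have hq' := (Finset.mem_filter.mp hq).2
    have hlt := q.2
    rcases hq' with ⟨h1, h2⟩ | ⟨h1, h2⟩
    · simp [h1, hlt]
    · simp [h1, not_lt.mpr hlt.le]
  · intro a ha
    have h1 := (Finset.mem_product.mp ha).1
    have h2 := Finset.mem_compl.mp (Finset.mem_product.mp ha).2
    by_cases h : a.1 < a.2
    · simp [h, h1]
    · simp [h, h1, h2]

/-- `a (m - a) ≤ ⌊m² / 4⌋`. -/
lemma mul_sub_le (m a : ℕ) (h : a ≤ m) : a * (m - a) ≤ m ^ 2 / 4 := by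
  rw [Nat.le_div_iff_mul_le (by norm_num)]
  obtain ⟨b, rfl⟩ := Nat.exists_eq_add_of_le h
  simp only [Nat.add_sub_cancel_left]
  nlinarith [sq_nonneg ((a : ℤ) - b), sq_abs ((a : ℤ) - b), Nat.zero_le (a * b),
    (by
      rcases le_total a b with h | h
      · obtain ⟨c, rfl⟩ := Nat.exists_eq_add_of_le h
        nlinarith [Nat.zero_le (c * c)]
      · obtain ⟨c, rfl⟩ := Nat.exists_eq_add_of_le h
        nlinarith [Nat.zero_le (c * c)] : a * b * 4 ≤ (a + b) ^ 2)]

lemma fin2_aux (a b z : Fin 2) (h : a ≠ b) : (a ≠ z ∧ b = z) ∨ (a = z ∧ b ≠ z) := by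
  revert a b z; decide

/-- `KP` is `r m`-edge-connected. -/
lemma KP_edgeConnected (m r p : ℕ) (hm : 1 ≤ m) :
    (KP m r p (r * m)).EdgeConnected (r * m) := by
  intro S hne hS
  set G := KP m r p (r * m) with hG
  by_cases hsep : ∃ q : Fin p, ¬ (Sum.inr q ∈ S ↔ (Sum.inl 0 : Fin (m + 1) ⊕ Fin p) ∈ S)
  · obtain ⟨q, hq⟩ := hsep
    have : (univ : Finset (Fin (r * m))).card ≤ G.cutCount univ S := by
      unfold Multigraph.cutCount
      refine Finset.card_le_card_of_injOn (fun c => Sum.inr (q, c)) ?_ ?_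
      · intro c _
        simp only [Finset.coe_filter, Finset.mem_univ, true_and, Set.mem_setOf_eq]
        unfold Multigraph.Crosses
        show ((Sum.inl 0 : Fin (m + 1) ⊕ Fin p) ∈ S ∧ Sum.inr q ∉ S) ∨
          ((Sum.inl 0 : Fin (m + 1) ⊕ Fin p) ∉ S ∧ Sum.inr q ∈ S)
        tauto
      · intro c _ c' _ h
        have := Sum.inr.inj h
        exact (Prod.ext_iff.mp this).2
    simpa using this
  · push_neg at hsep
    set A : Finset (Fin (m + 1)) := univ.filter (fun i => Sum.inl i ∈ S) with hA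
    have hmemA : ∀ i, i ∈ A ↔ Sum.inl i ∈ S := by simp [hA]
    have hApos : 1 ≤ A.card := by
      rw [Nat.succ_le_iff, Finset.card_pos]
      obtain ⟨x, hx⟩ := hne
      rcases x with i | q
      · exact ⟨i, (hmemA i).2 hx⟩
      · exact ⟨0, (hmemA 0).2 ((hsep q).1 hx)⟩
    have hAlt : A.card ≤ m := by
      by_contra hcon
      have hcard : A.card = m + 1 := by
        have := Finset.card_le_univ A
        simp only [Fintype.card_fin] at this
        omega
      have huniv : A = univ := by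
        apply Finset.eq_univ_of_card
        simpa using hcard
      apply hS
      ext x
      simp only [Set.mem_univ, iff_true]
      rcases x with i | q
      · exact (hmemA i).1 (by rw [huniv]; simp)
      · exact (hsep q).2 ((hmemA 0).1 (by rw [huniv]; simp))
    have hcount : (((univ : Finset (Pr (m + 1))).filter
        (fun q => (q.1.1 ∈ A ∧ q.1.2 ∉ A) ∨ (q.1.1 ∉ A ∧ q.1.2 ∈ A))) ×ˢ
        (univ : Finset (Fin r))).card ≤ G.cutCount univ S := by
      unfold Multigraph.cutCount
      refine Finset.card_le_card_of_injOn (fun x => Sum.inl x) ?_ ?_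
      · intro x hx
        have hx1 := (Finset.mem_filter.mp (Finset.mem_product.mp hx).1).2
        simp only [Finset.coe_filter, Finset.mem_univ, true_and, Set.mem_setOf_eq]
        unfold Multigraph.Crosses
        show (Sum.inl x.1.1.1 ∈ S ∧ Sum.inl x.1.1.2 ∉ S) ∨ (Sum.inl x.1.1.1 ∉ S ∧ Sum.inl x.1.1.2 ∈ S)
        simpa only [hmemA] using hx1
      · intro x _ x' _ h
        exact Sum.inl.inj h
    rw [Finset.card_product, card_sep] at hcount
    simp only [Finset.card_univ, Fintype.card_fin] at hcount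
    have hmul : m ≤ A.card * (m + 1 - A.card) := by
      obtain ⟨a, ha⟩ := Nat.exists_eq_add_of_le hApos
      obtain ⟨b, hb⟩ := Nat.exists_eq_add_of_le hAlt
      have h1 : m + 1 - A.card = b + 1 := by omega
      rw [h1, ha]
      have h2 : m = 1 + a + b := by omega
      rw [h2]
      nlinarith [Nat.zero_le (a * b)]
    calc r * m ≤ r * (A.card * (m + 1 - A.card)) := Nat.mul_le_mul_left _ hmul
      _ = A.card * (m + 1 - A.card) * r := by ring
      _ ≤ _ := hcount

/-- Every thin bound for a spanning tree of `KP` is at least `m / (r ⌊(m+1)²/4⌋)`. -/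
lemma KP_thin_lower (m r p k : ℕ) (hm : 1 ≤ m) (hr : 1 ≤ r) (T : Finset (EdgeT m r p k))
    (hT : (KP m r p k).IsSpanningTree T) (α : ℝ) (hα : (KP m r p k).IsThin T α) :
    (m : ℝ) / ((r : ℝ) * (((m + 1) ^ 2 / 4 : ℕ) : ℝ)) ≤ α := by
  set G := KP m r p k with hG
  obtain ⟨c, hc⟩ := exists_colouring G T hT
  obtain ⟨_, hinj⟩ := tree_facts G T hT
  set z : Fin (m + 1) ⊕ Fin p := Sum.inl 0 with hz
  set A : Finset (Fin (m + 1)) := univ.filter (fun i => c (Sum.inl i) ≠ c z) with hA
  have hmemA : ∀ i, i ∈ A ↔ c (Sum.inl i) ≠ c z := by simp [hA]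
  set S : Set (Fin (m + 1) ⊕ Fin p) := Sum.inl '' (A : Set (Fin (m + 1))) with hS
  have hSl : ∀ i, (Sum.inl i : Fin (m + 1) ⊕ Fin p) ∈ S ↔ i ∈ A := by
    intro i
    simp [hS]
  have hSr : ∀ q, (Sum.inr q : Fin (m + 1) ⊕ Fin p) ∉ S := by
    intro q
    simp [hS]
  have h0 : (0 : Fin (m + 1)) ∉ A := by simp [hmemA, hz]
  -- the copies of `T` among the core edges
  set Tl : Finset (EdgeT m r p k) := T.filter (fun e => e.isLeft) with hTl
  set Tr : Finset (EdgeT m r p k) := T.filter (fun e => ¬ e.isLeft) with hTr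
  have hsplit : Tl.card + Tr.card = T.card := Finset.card_filter_add_card_filter_not _
  have hTcard : T.card = m + p := by
    have := hT.1
    simp only [Fintype.card_sum, Fintype.card_fin] at this
    omega
  have hTr_le : Tr.card ≤ p := by
    have hle : Tr.card ≤ ((univ : Finset (Fin p)).image some).card := by
      refine Finset.card_le_card_of_injOn
        (fun e => Sum.elim (fun _ => none) (fun y => some y.1) e) ?_ ?_
      · intro e he
        have he' := (Finset.mem_filter.mp he).2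
        rcases e with x | y
        · simp at he'
        · simp
      · intro e he e' he' hee
        have h1 := (Finset.mem_filter.mp he)
        have h2 := (Finset.mem_filter.mp he')
        rcases e with x | y
        · simp at h1
        rcases e' with x' | y'
        · simp at h2
        have hq : y.1 = y'.1 := by simpa using hee
        apply hinj h1.1 h2.1
        show s(G.fst (Sum.inr y), G.snd (Sum.inr y)) = s(G.fst (Sum.inr y'), G.snd (Sum.inr y'))
        show s((Sum.inl 0 : Fin (m + 1) ⊕ Fin p), Sum.inr y.1) = s(Sum.inl 0, Sum.inr y'.1)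
        rw [hq]
    have h2 : ((univ : Finset (Fin p)).image some).card ≤ (univ : Finset (Fin p)).card :=
      Finset.card_image_le
    simpa using hle.trans h2
  have hTl_ge : m ≤ Tl.card := by omega
  have hcrossT : m ≤ G.cutCount T S := by
    refine hTl_ge.trans (Finset.card_le_card ?_)
    intro e he
    have h1 := Finset.mem_filter.mp he
    refine Finset.mem_filter.mpr ⟨h1.1, ?_⟩
    rcases e with x | y
    · have hne := hc _ h1.1
      have hne' : c (Sum.inl x.1.1.1) ≠ c (Sum.inl x.1.1.2) := hne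
      show (Sum.inl x.1.1.1 ∈ S ∧ Sum.inl x.1.1.2 ∉ S) ∨ (Sum.inl x.1.1.1 ∉ S ∧ Sum.inl x.1.1.2 ∈ S)
      simp only [hSl, hmemA]
      rcases fin2_aux _ _ (c z) hne' with ⟨h3, h4⟩ | ⟨h3, h4⟩
      · exact Or.inl ⟨h3, by simpa using h4⟩
      · exact Or.inr ⟨by simpa using h3, h4⟩
    · simp at h1
  have hcrossG : G.cutCount univ S ≤ A.card * (m + 1 - A.card) * r := by
    rw [← card_sep (m + 1) A]
    have : (((univ : Finset (Pr (m + 1))).filter
        (fun q => (q.1.1 ∈ A ∧ q.1.2 ∉ A) ∨ (q.1.1 ∉ A ∧ q.1.2 ∈ A))).card) * r =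
        (((univ : Finset (Pr (m + 1))).filter
        (fun q => (q.1.1 ∈ A ∧ q.1.2 ∉ A) ∨ (q.1.1 ∉ A ∧ q.1.2 ∈ A))) ×ˢ
        (univ : Finset (Fin r))).card := by
      rw [Finset.card_product]; simp
    rw [this]
    unfold Multigraph.cutCount
    refine (Finset.card_le_card ?_).trans (Finset.card_image_le (f := Sum.inl))
    intro e he
    have he' := (Finset.mem_filter.mp he).2
    rcases e with x | y
    · refine Finset.mem_image.mpr ⟨x, Finset.mem_product.mpr ⟨Finset.mem_filter.mpr ⟨Finset.mem_univ _, ?_⟩,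
        Finset.mem_univ _⟩, rfl⟩
      have he2 : (Sum.inl x.1.1.1 ∈ S ∧ Sum.inl x.1.1.2 ∉ S) ∨
        (Sum.inl x.1.1.1 ∉ S ∧ Sum.inl x.1.1.2 ∈ S) := he'
      simpa only [hSl] using he2
    · exfalso
      have he2 : ((Sum.inl 0 : Fin (m + 1) ⊕ Fin p) ∈ S ∧ Sum.inr y.1 ∉ S) ∨
        ((Sum.inl 0 : Fin (m + 1) ⊕ Fin p) ∉ S ∧ Sum.inr y.1 ∈ S) := he'
      rcases he2 with ⟨h3, _⟩ | ⟨_, h3⟩
      · exact h0 ((hSl 0).1 h3)
      · exact hSr _ h3
  have hSne : S.Nonempty := by
    have hpos : 0 < G.cutCount T S := by omega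
    unfold Multigraph.cutCount at hpos
    obtain ⟨e, he⟩ := Finset.card_pos.mp hpos
    have he' : G.Crosses S e := (Finset.mem_filter.mp he).2
    rcases he' with ⟨h3, _⟩ | ⟨_, h3⟩
    · exact ⟨_, h3⟩
    · exact ⟨_, h3⟩
  have hSne2 : S ≠ Set.univ := by
    intro h
    have : z ∈ S := by rw [h]; trivial
    exact h0 ((hSl 0).1 this)
  have hthin := hα S hSne hSne2
  have hF : A.card * (m + 1 - A.card) ≤ (m + 1) ^ 2 / 4 :=
    mul_sub_le (m + 1) A.card (by simpa using Finset.card_le_univ A)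
  have hrpos : (0 : ℝ) < r := by exact_mod_cast hr
  have hmpos : (0 : ℝ) < m := by exact_mod_cast hm
  have hT1 : (m : ℝ) ≤ (G.cutCount T S : ℝ) := by exact_mod_cast hcrossT
  have hG1 : (G.cutCount univ S : ℝ) ≤ (r : ℝ) * (((m + 1) ^ 2 / 4 : ℕ) : ℝ) := by
    have : G.cutCount univ S ≤ r * ((m + 1) ^ 2 / 4) := by
      calc G.cutCount univ S ≤ A.card * (m + 1 - A.card) * r := hcrossG
        _ = r * (A.card * (m + 1 - A.card)) := by ring
        _ ≤ _ := Nat.mul_le_mul_left _ hF
    exact_mod_cast this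
  have hG0 : (0 : ℝ) ≤ (G.cutCount univ S : ℝ) := Nat.cast_nonneg _
  have hαpos : 0 < α := by
    by_contra hneg
    have : α * (G.cutCount univ S : ℝ) ≤ 0 :=
      mul_nonpos_of_nonpos_of_nonneg (not_lt.mp hneg) hG0
    linarith
  have hFpos : (0 : ℝ) < (r : ℝ) * (((m + 1) ^ 2 / 4 : ℕ) : ℝ) := by
    have : 0 < (m + 1) ^ 2 / 4 := by
      apply Nat.div_pos _ (by norm_num)
      nlinarith
    have h' : (0 : ℝ) < (((m + 1) ^ 2 / 4 : ℕ) : ℝ) := by exact_mod_cast this
    positivity
  rw [div_le_iff₀ hFpos]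
  calc (m : ℝ) ≤ _ := hT1
    _ ≤ _ := hthin
    _ ≤ _ := mul_le_mul_of_nonneg_left hG1 hαpos.le

end Vale.Agent.Lib.P061
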