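import Mathlib

/-!
Finite loopless multigraphs, cuts, edge connectivity, spanning trees and thinness,
exactly as in the problem file: edge copies are the elements of a finite type `E`.
-/

namespace Vale.Agent.Lib.P061

open Classical

/-- A loopless multigraph on vertex type `V` with edge copies `E`: every copy has two
distinct endpoints, and parallel copies are separate elements of `E`. -/
structure Multigraph (V E : Type) where
  fst : E → V
  snd : E → V
  loopless : ∀ e, fst e ≠ snd e

variable {V E : Type}

/-- The copy `e` has exactly one endpoint in `S`. -/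
def Multigraph.Crosses (G : Multigraph V E) (S : Set V) (e : E) : Prop :=
  (G.fst e ∈ S ∧ G.snd e ∉ S) ∨ (G.fst e ∉ S ∧ G.snd e ∈ S)

/-- The number of copies in `F` with exactly one endpoint in `S`, that is, the size of
`F ∩ δ(S)`. -/
noncomputable def Multigraph.cutCount (G : Multigraph V E) (F : Finset E) (S : Set V) : ℕ :=
  (F.filter (fun e => G.Crosses S e)).card

/-- `G` is `k`-edge-connected: every cut by a nonempty proper vertex set has at least `k`
copies. -/
def Multigraph.EdgeConnected [Fintype E] (G : Multigraph V E) (k : ℕ) : Prop :=
  ∀ S : Set V, S.Nonempty → S ≠ Set.univ → k ≤ G.cutCount Finset.univ S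

/-- `T` is a spanning tree of `G`: a set of `|V| - 1` copies joining any two vertices. -/
def Multigraph.IsSpanningTree [Fintype V] (G : Multigraph V E) (T : Finset E) : Prop :=
  T.card + 1 = Fintype.card V ∧
    ∀ u v : V, Relation.ReflTransGen
      (fun a b => ∃ e ∈ T, (G.fst e = a ∧ G.snd e = b) ∨ (G.fst e = b ∧ G.snd e = a)) u v

/-- `T` is `α`-thin in `G`: on every cut by a nonempty proper vertex set it has at most `α`
times the number of copies of `G`. -/
def Multigraph.IsThin [Fintype E] (G : Multigraph V E) (T : Finset E) (α : ℝ) : Prop :=
  ∀ S : Set V, S.Nonempty → S ≠ Set.univ →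
    (G.cutCount T S : ℝ) ≤ α * (G.cutCount Finset.univ S : ℝ)

end Vale.Agent.Lib.P061
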