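import Vale.Agent.Lib.P061.Apex

/-!
Thin spanning trees for bounded pathwidth.

A path decomposition is given by an interval `[L v, U v]` for each vertex.  Clusters are merged one by
one: the cluster whose interval ends first is merged with a neighbouring cluster sharing many copies,
along a copy taken from a large class of parallel strands.  Two strands are separated only by tree
edges whose own overlap interval is nested in the current one, and at most `W` overlap intervals
contain a given position.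
-/

namespace Vale.Agent.Lib.P061

open Classical Finset

variable {V E : Type}

/-- Intervals `[L v, U v]` form a path decomposition of `G` with bags of size at most `W`. -/
structure Multigraph.PathDec [Fintype V] (G : Multigraph V E) (W : ℕ) (L U : V → ℕ) : Prop where
  hLU : ∀ v, L v ≤ U v
  hbag : ∀ p, (univ.filter (fun v => L v ≤ p ∧ p ≤ U v)).card ≤ W
  hedge : ∀ e, L (G.fst e) ≤ U (G.snd e) ∧ L (G.snd e) ≤ U (G.fst e)

namespace PW

/-- The position of a copy: a common point of the intervals of its endpoints. -/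
def pos (G : Multigraph V E) (L : V → ℕ) (e : E) : ℕ := max (L (G.fst e)) (L (G.snd e))

/-- The cluster with root `ρ` has a vertex whose interval contains `p`. -/
def Cov (root : V → V) (L U : V → ℕ) (ρ : V) (p : ℕ) : Prop := ∃ x, root x = ρ ∧ L x ≤ p ∧ p ≤ U x

lemma pos_mem [Fintype V] {G : Multigraph V E} {W : ℕ} {L U : V → ℕ} (hP : G.PathDec W L U)
    {e : E} {a b : V} (h : G.Joins e a b) :
    L a ≤ pos G L e ∧ pos G L e ≤ U a ∧ L b ≤ pos G L e ∧ pos G L e ≤ U b := by
  have h1 := hP.hedge e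
  have h2 := hP.hLU (G.fst e)
  have h3 := hP.hLU (G.snd e)
  have h6 := le_max_left (L (G.fst e)) (L (G.snd e))
  have h7 := le_max_right (L (G.fst e)) (L (G.snd e))
  have h8 : max (L (G.fst e)) (L (G.snd e)) ≤ U (G.fst e) := max_le h2 h1.2
  have h9 : max (L (G.fst e)) (L (G.snd e)) ≤ U (G.snd e) := max_le h1.1 h3
  unfold pos
  rcases h with ⟨h4, h5⟩ | ⟨h4, h5⟩
  · subst h4
    subst h5
    exact ⟨h6, h8, h7, h9⟩
  · subst h4
    subst h5
    exact ⟨h7, h9, h6, h8⟩

/-- Pigeonhole on the fibres of a map. -/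
lemma pigeon {α β : Type} (A : Finset α) (T : Finset β) (f : α → β) (hf : ∀ a ∈ A, f a ∈ T)
    (hA : A.Nonempty) : ∃ t ∈ T, A.card ≤ T.card * (A.filter (fun a => f a = t)).card := by
  by_contra hcon
  push Not at hcon
  obtain ⟨a0, ha0⟩ := hA
  have hT : T.Nonempty := ⟨f a0, hf a0 ha0⟩
  have h1 : A.card = ∑ t ∈ T, (A.filter (fun a => f a = t)).card :=
    card_eq_sum_card_fiberwise hf
  have h2 : ∑ t ∈ T, T.card * (A.filter (fun a => f a = t)).card < ∑ _t ∈ T, A.card :=
    sum_lt_sum_of_nonempty hT hcon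
  rw [← mul_sum, ← h1, sum_const, smul_eq_mul] at h2
  exact lt_irrefl _ h2

/-- A walk leaving a set has a step leaving it. -/
lemma exists_exit {G : Multigraph V E} {F : Finset E} {u x : V} (P : V → Prop) (h : G.Conn F u x)
    (hu : P u) (hx : ¬ P x) : ∃ y y' e, P y ∧ ¬ P y' ∧ e ∈ F ∧ G.Joins e y y' := by
  induction h with
  | refl => exact absurd hu hx
  | @tail b c _ hstep ih =>
    obtain ⟨e, he, hJ⟩ := hstep
    by_cases hb : P b
    · exact ⟨b, c, e, hb, hx, he, hJ⟩
    · exact ih hb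

/-- One merge of the tree of `r` into the tree of `r1` along `e0`. -/
lemma merge_step [Fintype V] [Fintype E] {G : Multigraph V E} {R : Finset V} {F : Finset E}
    {root : V → V} (hF : RootedForest G Rᶜ R F root) {r r1 inn out : V} {e0 : E} (hr : r ∈ R)
    (hJ : G.Joins e0 inn out) (hinn : root inn = r) (hout : root out = r1) (hne : r1 ≠ r) :
    RootedForest G (R.erase r)ᶜ (R.erase r) (insert e0 F) (fun x => if root x = r then r1 else root x) := by
  have hrootR : ∀ x, x ∈ R → root x = x := fun x hx =>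
    hF.rootOut x (fun h => (mem_compl.mp h) hx)
  have hrootMem : ∀ x, root x ∈ R := by
    intro x
    by_cases hx : x ∈ R
    · rw [hrootR x hx]
      exact hx
    · exact hF.rootH x (mem_compl.mpr hx)
  have hr1R : r1 ∈ R := hout ▸ hrootMem out
  set R' := R.erase r with hR'
  have hr1R' : r1 ∈ R' := mem_erase.mpr ⟨hne, hr1R⟩
  have hinnR' : inn ∉ R' := by
    intro h
    obtain ⟨h1, h2⟩ := mem_erase.mp h
    rw [hrootR inn h2] at hinn
    exact h1 hinn
  have hsub : Rᶜ ⊆ R'ᶜ := by
    intro x hx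
    rw [mem_compl] at hx ⊢
    intro h
    exact hx (mem_erase.mp h).2
  have hmono : F ⊆ insert e0 F := subset_insert _ _
  have he0F : e0 ∉ F := by
    intro h
    have h1 := hF.edge e0 h
    rcases hJ with ⟨h2, h3⟩ | ⟨h2, h3⟩
    · rw [h2, h3, hinn, hout] at h1
      exact hne h1.symm
    · rw [h2, h3, hinn, hout] at h1
      exact hne h1
  have hcardR : R'.card + 1 = R.card := by
    rw [hR', card_erase_of_mem hr]
    have := card_pos.mpr ⟨r, hr⟩
    omega
  refine ⟨?_, ?_, ?_, ?_, ?_, ?_⟩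
  · intro e he
    rcases mem_insert.mp he with rfl | he
    · simp only [Multigraph.edgesAt, mem_filter, mem_univ, true_and, mem_compl]
      rcases hJ with ⟨h1, _⟩ | ⟨_, h1⟩
      · exact Or.inl (h1 ▸ hinnR')
      · exact Or.inr (h1 ▸ hinnR')
    · exact edgesAt_mono G hsub (hF.sub he)
  · rw [card_insert_of_notMem he0F, hF.card, card_compl, card_compl]
    have h1 : R.card ≤ Fintype.card V := card_le_univ _
    omega
  · intro x _
    by_cases h : root x = r
    · simp only [if_pos h]
      exact hr1R'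
    · simp only [if_neg h]
      exact mem_erase.mpr ⟨h, hrootMem x⟩
  · intro x hx
    have hx' : x ∈ R' := by
      by_contra h
      exact hx (mem_compl.mpr h)
    obtain ⟨h1, h2⟩ := mem_erase.mp hx'
    have h3 := hrootR x h2
    simp only [h3, if_neg h1]
  · intro e he
    rcases mem_insert.mp he with rfl | he
    · have h1 : (if root inn = r then r1 else root inn) = r1 := if_pos hinn
      have h2 : (if root out = r then r1 else root out) = r1 := by
        rw [if_neg (by rw [hout]; exact hne), hout]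
      rcases hJ with ⟨h3, h4⟩ | ⟨h3, h4⟩
      · rw [h3, h4, h1, h2]
      · rw [h3, h4, h1, h2]
    · have h1 := hF.edge e he
      simp only [h1]
  · intro x
    by_cases h : root x = r
    · simp only [if_pos h]
      have h2 : G.Conn (insert e0 F) x r := by
        have := hF.conn x
        rw [h] at this
        exact Conn.mono hmono this
      have h3 : G.Conn (insert e0 F) r inn := by
        have := hF.conn inn
        rw [hinn] at this
        exact Conn.symm (Conn.mono hmono this)
      have h4 : G.Conn (insert e0 F) inn out :=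
        Relation.ReflTransGen.single ⟨e0, mem_insert_self _ _, hJ⟩
      have h5 : G.Conn (insert e0 F) out r1 := by
        have := Conn.mono hmono (hF.conn out)
        rw [hout] at this
        exact this
      exact (h2.trans h3).trans (h4.trans h5)
    · simp only [if_neg h]
      exact Conn.mono hmono (hF.conn x)

variable [Fintype V] [Fintype E]

/-- The state after `n` merges. -/
structure St (G : Multigraph V E) (W k : ℕ) (L U : V → ℕ) (n : ℕ) (R : Finset V) (root : V → V)
    (a b : ℕ → ℕ) (ed : ℕ → E) (K : ℕ → Finset E) : Prop where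
  forest : RootedForest G Rᶜ R ((range n).image ed) root
  Rcard : R.card + n = Fintype.card V
  rec_pos : ∀ i, i < n → a i ≤ pos G L (ed i) ∧ pos G L (ed i) ≤ b i
  mem : ∀ i, i < n → ed i ∈ K i
  big : ∀ i, i < n → k ≤ W * (6 * W + 2) ^ 2 * (K i).card
  same : ∀ i, i < n → ∀ f ∈ K i, root (G.fst f) = root (G.snd f)
  disj : ∀ i j, i < n → j < n → i ≠ j → Disjoint (K i) (K j)
  overlap : ∀ p, ((range n).filter (fun i => a i ≤ p ∧ p ≤ b i)).card +
    (R.filter (fun ρ => Cov root L U ρ p)).card ≤ W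
  span : ∀ x y, root x = root y → ∀ p, L x ≤ p → p ≤ U y → Cov root L U (root x) p
  analysis : ∀ i, i < n → ∀ S : Set V, G.Crosses S (ed i) →
    (∀ f ∈ K i, G.Crosses S f) ∨ ∃ j, j < i ∧ a i ≤ a j ∧ b j ≤ b i ∧ G.Crosses S (ed j)

/-- The tree edges whose overlap interval is nested in `[a0, b0]`. -/
noncomputable def Fint (n : ℕ) (a b : ℕ → ℕ) (ed : ℕ → E) (a0 b0 : ℕ) : Finset E :=
  ((range n).filter (fun j => a0 ≤ a j ∧ b j ≤ b0)).image ed

/-- The vertices of a bag. -/
noncomputable def bag (L U : V → ℕ) (p : ℕ) : Finset V := univ.filter (fun v => L v ≤ p ∧ p ≤ U v)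

/-- The merges whose overlap interval contains `p`. -/
noncomputable def recs (n : ℕ) (a b : ℕ → ℕ) (p : ℕ) : Finset ℕ :=
  (range n).filter (fun i => a i ≤ p ∧ p ≤ b i)

/-- The endpoints of tree edges of a set of merges. -/
noncomputable def ends (G : Multigraph V E) (ed : ℕ → E) (A : Finset ℕ) : Finset V :=
  A.image (fun i => G.fst (ed i)) ∪ A.image (fun i => G.snd (ed i))

/-- The witnesses of the strands. -/
noncomputable def Wit (G : Multigraph V E) (L U : V → ℕ) (n : ℕ) (a b : ℕ → ℕ) (ed : ℕ → E) (a0 b0 : ℕ)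
    (r1 r2 : V) : Finset V :=
  bag L U a0 ∪ bag L U b0 ∪ ends G ed (recs n a b a0) ∪ ends G ed (recs n a b b0) ∪ {r1, r2}

lemma ends_card (G : Multigraph V E) (ed : ℕ → E) (A : Finset ℕ) : (ends G ed A).card ≤ 2 * A.card := by
  unfold ends
  have h1 := card_union_le (A.image (fun i => G.fst (ed i))) (A.image (fun i => G.snd (ed i)))
  have h2 : (A.image (fun i => G.fst (ed i))).card ≤ A.card := card_image_le
  have h3 : (A.image (fun i => G.snd (ed i))).card ≤ A.card := card_image_le
  omega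

lemma Wit_card {G : Multigraph V E} {W k : ℕ} {L U : V → ℕ} {n : ℕ} {R : Finset V} {root : V → V}
    {a b : ℕ → ℕ} {ed : ℕ → E} {K : ℕ → Finset E} (hP : G.PathDec W L U)
    (hS : St G W k L U n R root a b ed K) (a0 b0 : ℕ) (r1 r2 : V) :
    (Wit G L U n a b ed a0 b0 r1 r2).card ≤ 6 * W + 2 := by
  have h1 : (bag L U a0).card ≤ W := hP.hbag a0
  have h2 : (bag L U b0).card ≤ W := hP.hbag b0
  have h3 : (recs n a b a0).card ≤ W := by
    have := hS.overlap a0
    unfold recs
    omega
  have h4 : (recs n a b b0).card ≤ W := by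
    have := hS.overlap b0
    unfold recs
    omega
  have h5 := ends_card G ed (recs n a b a0)
  have h6 := ends_card G ed (recs n a b b0)
  have h7 : (({r1, r2} : Finset V)).card ≤ 2 := card_le_two
  unfold Wit
  have h8 := card_union_le (bag L U a0 ∪ bag L U b0 ∪ ends G ed (recs n a b a0) ∪ ends G ed (recs n a b b0)) {r1, r2}
  have h9 := card_union_le (bag L U a0 ∪ bag L U b0 ∪ ends G ed (recs n a b a0)) (ends G ed (recs n a b b0))
  have h10 := card_union_le (bag L U a0 ∪ bag L U b0) (ends G ed (recs n a b a0))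
  have h11 := card_union_le (bag L U a0) (bag L U b0)
  omega

/-- Every vertex of the overlap interval lies in the strand of a witness. -/
lemma strand {G : Multigraph V E} {W k : ℕ} {L U : V → ℕ} {n : ℕ} {R : Finset V} {root : V → V}
    {a b : ℕ → ℕ} {ed : ℕ → E} {K : ℕ → Finset E} (hP : G.PathDec W L U)
    (hS : St G W k L U n R root a b ed K) {a0 b0 : ℕ} {r2 : V} {u : V}
    (hu : ∃ p, a0 ≤ p ∧ p ≤ b0 ∧ L u ≤ p ∧ p ≤ U u) :
    ∃ z ∈ Wit G L U n a b ed a0 b0 (root u) r2, G.Conn (Fint n a b ed a0 b0) u z := by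
  set FI := Fint n a b ed a0 b0 with hFI
  by_cases hroot : G.Conn FI u (root u)
  · refine ⟨root u, ?_, hroot⟩
    unfold Wit
    apply mem_union_right
    simp
  -- the walk to the root leaves the strand
  obtain ⟨y, y', e, hy, hy', he, hJ⟩ := exists_exit (fun x => G.Conn FI u x) (hS.forest.conn u)
    (Relation.ReflTransGen.refl) hroot
  obtain ⟨j, hj, rfl⟩ := mem_image.mp he
  have hjn : j < n := mem_range.mp hj
  -- the strand stays in the overlap interval
  have hVI : ∀ x, G.Conn FI u x → ∃ p, a0 ≤ p ∧ p ≤ b0 ∧ L x ≤ p ∧ p ≤ U x := by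
    intro x hx
    induction hx with
    | refl => exact hu
    | @tail c d _ hstep _ =>
      obtain ⟨e', he', hJ'⟩ := hstep
      obtain ⟨j', hj', rfl⟩ := mem_image.mp he'
      obtain ⟨hj1, hj2, hj3⟩ := mem_filter.mp hj'
      have hjn' := mem_range.mp hj1
      obtain ⟨h1, h2⟩ := hS.rec_pos j' hjn'
      obtain ⟨_, _, h5, h6⟩ := pos_mem hP hJ'
      exact ⟨_, by omega, by omega, h5, h6⟩
  obtain ⟨p, hp1, hp2, hp3, hp4⟩ := hVI y hy
  obtain ⟨h1, h2, _, _⟩ := pos_mem hP hJ
  obtain ⟨h5, h6⟩ := hS.rec_pos j hjn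
  -- the tree edge is not nested
  have hnot : ¬ (a0 ≤ a j ∧ b j ≤ b0) := by
    intro hin
    apply hy'
    refine hy.tail ⟨ed j, mem_image_of_mem _ (mem_filter.mpr ⟨hj, hin⟩), hJ⟩
  have hyend : y ∈ ends G ed {j} := by
    unfold ends
    rcases hJ with ⟨h7, _⟩ | ⟨_, h7⟩
    · apply mem_union_left
      exact mem_image.mpr ⟨j, mem_singleton_self _, h7⟩
    · apply mem_union_right
      exact mem_image.mpr ⟨j, mem_singleton_self _, h7⟩
  have hendsub : ∀ A : Finset ℕ, j ∈ A → y ∈ ends G ed A := by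
    intro A hA
    unfold ends at hyend ⊢
    rcases mem_union.mp hyend with h7 | h7
    · obtain ⟨i, hi, h8⟩ := mem_image.mp h7
      rw [mem_singleton.mp hi] at h8
      exact mem_union_left _ (mem_image.mpr ⟨j, hA, h8⟩)
    · obtain ⟨i, hi, h8⟩ := mem_image.mp h7
      rw [mem_singleton.mp hi] at h8
      exact mem_union_right _ (mem_image.mpr ⟨j, hA, h8⟩)
  refine ⟨y, ?_, hy⟩
  unfold Wit
  apply mem_union_left
  set q := pos G L (ed j) with hq
  by_cases hqa : q < a0
  · -- the interval of `y` contains `a0`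
    apply mem_union_left
    apply mem_union_left
    apply mem_union_left
    exact mem_filter.mpr ⟨mem_univ _, by omega, by omega⟩
  by_cases hqb : b0 < q
  · apply mem_union_left
    apply mem_union_left
    apply mem_union_right
    exact mem_filter.mpr ⟨mem_univ _, by omega, by omega⟩
  by_cases hlow : a j < a0
  · apply mem_union_left
    apply mem_union_right
    exact hendsub _ (mem_filter.mpr ⟨hj, by omega, by omega⟩)
  · apply mem_union_right
    have hhigh : b0 < b j := by
      by_contra hcon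
      exact hnot ⟨by omega, by omega⟩
    exact hendsub _ (mem_filter.mpr ⟨hj, by omega, by omega⟩)

variable {G : Multigraph V E} {W k : ℕ} {L U : V → ℕ} {n : ℕ} {R : Finset V} {root : V → V}
  {a b : ℕ → ℕ} {ed : ℕ → E} {K : ℕ → Finset E}

/-- The initial state: every vertex is a root. -/
lemma initial (hP : G.PathDec W L U) (a b : ℕ → ℕ) (ed : ℕ → E) (K : ℕ → Finset E) :
    St G W k L U 0 univ id a b ed K := by
  refine ⟨⟨?_, ?_, ?_, ?_, ?_, ?_⟩, ?_, ?_, ?_, ?_, ?_, ?_, ?_, ?_, ?_⟩
  · simp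
  · simp
  · intro v _
    exact mem_univ _
  · intro v _
    rfl
  · intro e he
    simp at he
  · intro v
    exact Relation.ReflTransGen.refl
  · simp
  · intro i hi
    omega
  · intro i hi
    omega
  · intro i hi
    omega
  · intro i hi
    omega
  · intro i j hi
    omega
  · intro p
    have h1 : (univ.filter (fun ρ => Cov id L U ρ p)) = univ.filter (fun v => L v ≤ p ∧ p ≤ U v) := by
      apply filter_congr
      intro x _
      constructor
      · rintro ⟨y, hy, h1, h2⟩
        have hy' : y = x := hy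
        subst hy'
        exact ⟨h1, h2⟩
      · rintro ⟨h1, h2⟩
        exact ⟨x, rfl, h1, h2⟩
    rw [h1]
    simpa using hP.hbag p
  · intro x y hxy p h1 h2
    have hxy' : x = y := hxy
    subst hxy'
    exact ⟨x, rfl, h1, h2⟩
  · intro i hi
    omega

/-- The choice of the merge: the two clusters and the class of parallel strands. -/
lemma select (hP : G.PathDec W L U) (hk : 1 ≤ k)
    (hcut : ∀ P : Finset V, P.Nonempty → P ≠ univ → k ≤ G.cutCount univ (P : Set V))
    (hS : St G W k L U n R root a b ed K) (hR : 2 ≤ R.card) :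
    ∃ (ρ0 ρ1 : V) (a0 b0 : ℕ) (z0 z1 : V) (K0 : Finset E) (u v : E → V),
      ρ0 ∈ R ∧ ρ1 ∈ R ∧ ρ1 ≠ ρ0 ∧ K0.Nonempty ∧ k ≤ W * (6 * W + 2) ^ 2 * K0.card ∧
      (∀ f ∈ K0, G.Joins f (u f) (v f) ∧ root (u f) = ρ0 ∧ root (v f) = ρ1 ∧
        a0 ≤ pos G L f ∧ pos G L f ≤ b0 ∧ G.Conn (Fint n a b ed a0 b0) (u f) z0 ∧
        G.Conn (Fint n a b ed a0 b0) (v f) z1) ∧
      (∀ p, a0 ≤ p → p ≤ b0 → Cov root L U ρ0 p ∧ Cov root L U ρ1 p) ∧
      (∀ p, Cov root L U ρ0 p → Cov root L U ρ1 p → a0 ≤ p ∧ p ≤ b0) := by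
  have hF := hS.forest
  have hrootR : ∀ x, x ∈ R → root x = x := fun x hx =>
    hF.rootOut x (fun h => (mem_compl.mp h) hx)
  have hrootMem : ∀ x, root x ∈ R := by
    intro x
    by_cases hx : x ∈ R
    · rw [hrootR x hx]
      exact hx
    · exact hF.rootH x (mem_compl.mpr hx)
  have hex : ∀ ρ, ∃ xl xh, ρ ∈ R → root xl = ρ ∧ root xh = ρ ∧
      ∀ x, root x = ρ → L xl ≤ L x ∧ U x ≤ U xh := by
    intro ρ
    by_cases hρ : ρ ∈ R
    · have hne : (univ.filter (fun x => root x = ρ)).Nonempty :=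
        ⟨ρ, mem_filter.mpr ⟨mem_univ _, hrootR ρ hρ⟩⟩
      obtain ⟨xl, hxl, hxl'⟩ := exists_min_image _ L hne
      obtain ⟨xh, hxh, hxh'⟩ := exists_max_image _ U hne
      exact ⟨xl, xh, fun _ => ⟨(mem_filter.mp hxl).2, (mem_filter.mp hxh).2, fun x hx =>
        ⟨hxl' x (mem_filter.mpr ⟨mem_univ _, hx⟩), hxh' x (mem_filter.mpr ⟨mem_univ _, hx⟩)⟩⟩⟩
    · exact ⟨ρ, ρ, fun h => absurd h hρ⟩
  choose xl xh hx using hex
  have hRne : R.Nonempty := card_pos.mp (by omega)
  obtain ⟨ρ0, hρ0, hmin⟩ := exists_min_image R (fun ρ => U (xh ρ)) hRne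
  obtain ⟨ρ2, hρ2, hρ2ne⟩ := exists_mem_ne (by omega : 1 < R.card) ρ0
  set C : Finset V := univ.filter (fun x => root x = ρ0) with hC
  have hCmem : ∀ x, x ∈ (C : Set V) ↔ root x = ρ0 := by
    intro x
    simp [hC]
  have hCne : C.Nonempty := ⟨ρ0, mem_filter.mpr ⟨mem_univ _, hrootR ρ0 hρ0⟩⟩
  have hCu : C ≠ univ := by
    intro h
    have h1 : ρ2 ∈ C := h ▸ mem_univ ρ2
    have h2 := (mem_filter.mp h1).2
    rw [hrootR ρ2 hρ2] at h2
    exact hρ2ne h2
  have hk1 := hcut C hCne hCu
  unfold Multigraph.cutCount at hk1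
  set Cr : Finset E := univ.filter (fun e => G.Crosses (C : Set V) e) with hCr
  have hcr : ∀ f, ∃ x y, f ∈ Cr → G.Joins f x y ∧ root x = ρ0 ∧ root y ≠ ρ0 := by
    intro f
    by_cases hf : f ∈ Cr
    · rcases (mem_filter.mp hf).2 with ⟨h1, h2⟩ | ⟨h1, h2⟩
      · refine ⟨G.fst f, G.snd f, fun _ => ⟨Or.inl ⟨rfl, rfl⟩, (hCmem _).1 h1, ?_⟩⟩
        intro h
        exact h2 ((hCmem _).2 h)
      · refine ⟨G.snd f, G.fst f, fun _ => ⟨Or.inr ⟨rfl, rfl⟩, (hCmem _).1 h2, ?_⟩⟩
        intro h
        exact h1 ((hCmem _).2 h)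
    · exact ⟨G.fst f, G.fst f, fun h => absurd h hf⟩
  choose u v huv using hcr
  set bs := U (xh ρ0) with hbs
  set Pres : Finset V := (R.filter (fun ρ => Cov root L U ρ bs)).erase ρ0 with hPres
  have hPcard : Pres.card ≤ W := by
    have h1 := hS.overlap bs
    have h2 : Pres.card ≤ (R.filter (fun ρ => Cov root L U ρ bs)).card := card_erase_le
    omega
  have hpos : ∀ f ∈ Cr, L (u f) ≤ pos G L f ∧ pos G L f ≤ U (u f) ∧ L (v f) ≤ pos G L f ∧
      pos G L f ≤ U (v f) := fun f hf => pos_mem hP (huv f hf).1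
  have hmaps : ∀ f ∈ Cr, root (v f) ∈ Pres := by
    intro f hf
    obtain ⟨h1, h2, h3⟩ := huv f hf
    obtain ⟨h4, h5, h6, h7⟩ := hpos f hf
    have h8 := (hx ρ0 hρ0).2.2 (u f) h2
    have h9 := hrootMem (v f)
    have h10 := hx (root (v f)) h9
    have h11 : U (xh ρ0) ≤ U (xh (root (v f))) := hmin (root (v f)) h9
    apply mem_erase.mpr
    refine ⟨h3, mem_filter.mpr ⟨h9, ?_⟩⟩
    exact hS.span (v f) (xh (root (v f))) h10.2.1.symm bs (by omega) h11
  have hCrne : Cr.Nonempty := card_pos.mp (by omega)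
  obtain ⟨ρ1, hρ1, hcard1⟩ := pigeon Cr Pres (fun f => root (v f)) hmaps hCrne
  have hρ1ne : ρ1 ≠ ρ0 := (mem_erase.mp hρ1).1
  have hρ1R : ρ1 ∈ R := (mem_filter.mp (mem_erase.mp hρ1).2).1
  set B : Finset E := Cr.filter (fun f => root (v f) = ρ1) with hB
  have hBmem : ∀ f ∈ B, f ∈ Cr ∧ root (v f) = ρ1 := fun f hf => mem_filter.mp hf
  set a0 := max (L (xl ρ0)) (L (xl ρ1)) with ha0
  set b0 := min (U (xh ρ0)) (U (xh ρ1)) with hb0
  have hx0 := hx ρ0 hρ0
  have hx1 := hx ρ1 hρ1R
  have hposB : ∀ f ∈ B, a0 ≤ pos G L f ∧ pos G L f ≤ b0 := by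
    intro f hf
    obtain ⟨h1, h2⟩ := hBmem f hf
    obtain ⟨h3, h4, h5, h6⟩ := hpos f h1
    obtain ⟨_, h7, _⟩ := huv f h1
    have h8 := hx0.2.2 (u f) h7
    have h9 := hx1.2.2 (v f) h2
    exact ⟨max_le (by omega) (by omega), le_min (by omega) (by omega)⟩
  set Wi := Wit G L U n a b ed a0 b0 ρ0 ρ1 with hWi
  have hWi' : Wit G L U n a b ed a0 b0 ρ1 ρ0 = Wi := by
    rw [hWi]
    unfold Wit
    rw [pair_comm]
  have hz : ∀ f, ∃ z z', f ∈ B → z ∈ Wi ∧ z' ∈ Wi ∧ G.Conn (Fint n a b ed a0 b0) (u f) z ∧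
      G.Conn (Fint n a b ed a0 b0) (v f) z' := by
    intro f
    by_cases hf : f ∈ B
    · obtain ⟨h1, h2⟩ := hBmem f hf
      obtain ⟨h3, h4, h5, h6⟩ := hpos f h1
      obtain ⟨_, h7, _⟩ := huv f h1
      obtain ⟨h8, h9⟩ := hposB f hf
      obtain ⟨z, hz1, hz2⟩ := strand (r2 := ρ1) hP hS (u := u f) (a0 := a0) (b0 := b0)
        ⟨pos G L f, h8, h9, h3, h4⟩
      obtain ⟨z', hz1', hz2'⟩ := strand (r2 := ρ0) hP hS (u := v f) (a0 := a0) (b0 := b0)
        ⟨pos G L f, h8, h9, h5, h6⟩
      rw [h7] at hz1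
      rw [h2, hWi'] at hz1'
      exact ⟨z, z', fun _ => ⟨hz1, hz1', hz2, hz2'⟩⟩
    · exact ⟨G.fst f, G.fst f, fun h => absurd h hf⟩
  choose z z' hzz using hz
  have hWicard : Wi.card ≤ 6 * W + 2 := Wit_card hP hS a0 b0 ρ0 ρ1
  have hBpos : B.Nonempty := by
    apply card_pos.mp
    by_contra h
    have h0 : B.card = 0 := by omega
    rw [h0] at hcard1
    have : Cr.card = 0 := by simpa using hcard1
    omega
  obtain ⟨⟨z0, z1⟩, _, hcard2⟩ := pigeon B (Wi ×ˢ Wi) (fun f => (z f, z' f))
    (fun f hf => mem_product.mpr ⟨(hzz f hf).1, (hzz f hf).2.1⟩) hBpos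
  set K0 : Finset E := B.filter (fun f => (z f, z' f) = (z0, z1)) with hK0
  have hcard2' : B.card ≤ (Wi ×ˢ Wi).card * K0.card := by
    convert hcard2
  have hbig : k ≤ W * (6 * W + 2) ^ 2 * K0.card := by
    have h1 : (Wi ×ˢ Wi).card ≤ (6 * W + 2) ^ 2 := by
      rw [card_product, sq]
      exact Nat.mul_le_mul hWicard hWicard
    calc k ≤ Cr.card := hk1
      _ ≤ Pres.card * B.card := hcard1
      _ ≤ W * B.card := Nat.mul_le_mul_right _ hPcard
      _ ≤ W * ((Wi ×ˢ Wi).card * K0.card) := Nat.mul_le_mul_left _ hcard2'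
      _ ≤ W * ((6 * W + 2) ^ 2 * K0.card) := Nat.mul_le_mul_left _ (Nat.mul_le_mul_right _ h1)
      _ = W * (6 * W + 2) ^ 2 * K0.card := by ring
  have hK0ne : K0.Nonempty := by
    apply card_pos.mp
    by_contra h
    have h0 : K0.card = 0 := by omega
    rw [h0] at hbig
    simp at hbig
    omega
  refine ⟨ρ0, ρ1, a0, b0, z0, z1, K0, u, v, hρ0, hρ1R, hρ1ne, hK0ne, hbig, ?_, ?_, ?_⟩
  · intro f hf
    obtain ⟨h1, h2⟩ := mem_filter.mp hf
    obtain ⟨h3, h4⟩ := hBmem f h1
    obtain ⟨h5, h6, _⟩ := huv f h3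
    obtain ⟨h7, h8⟩ := hposB f h1
    obtain ⟨_, _, h9, h10⟩ := hzz f h1
    have h11 : z f = z0 := congrArg Prod.fst h2
    have h12 : z' f = z1 := congrArg Prod.snd h2
    rw [h11] at h9
    rw [h12] at h10
    exact ⟨h5, h6, h4, h7, h8, h9, h10⟩
  · intro p h1 h2
    have h3 : L (xl ρ0) ≤ a0 := le_max_left _ _
    have h4 : L (xl ρ1) ≤ a0 := le_max_right _ _
    have h5 : b0 ≤ U (xh ρ0) := min_le_left _ _
    have h6 : b0 ≤ U (xh ρ1) := min_le_right _ _
    constructor
    · have := hS.span (xl ρ0) (xh ρ0) (hx0.1.trans hx0.2.1.symm) p (by omega) (by omega)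
      rwa [hx0.1] at this
    · have := hS.span (xl ρ1) (xh ρ1) (hx1.1.trans hx1.2.1.symm) p (by omega) (by omega)
      rwa [hx1.1] at this
  · rintro p ⟨x, hx', h1, h2⟩ ⟨y, hy', h3, h4⟩
    have h5 := hx0.2.2 x hx'
    have h6 := hx1.2.2 y hy'
    exact ⟨max_le (by omega) (by omega), le_min (by omega) (by omega)⟩

/-- Copies of a walk on non-crossing copies do not separate its ends. -/
lemma conn_side {G : Multigraph V E} {F : Finset E} {S : Set V} (hF : ∀ e ∈ F, ¬ G.Crosses S e)
    {x y : V} (h : G.Conn F x y) : x ∈ S ↔ y ∈ S := by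
  induction h with
  | refl => exact Iff.rfl
  | @tail c d _ hstep ih =>
    obtain ⟨e, he, hJ⟩ := hstep
    have h1 := hF e he
    rw [FCtx.crosses_iff hJ, not_not] at h1
    exact ih.trans h1

/-- One merge. -/
lemma step (hP : G.PathDec W L U) (hk : 1 ≤ k)
    (hcut : ∀ P : Finset V, P.Nonempty → P ≠ univ → k ≤ G.cutCount univ (P : Set V))
    (hS : St G W k L U n R root a b ed K) (hR : 2 ≤ R.card) :
    ∃ (R' : Finset V) (root' : V → V) (a' b' : ℕ → ℕ) (ed' : ℕ → E) (K' : ℕ → Finset E),
      St G W k L U (n + 1) R' root' a' b' ed' K' := by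
  obtain ⟨ρ0, ρ1, a0, b0, z0, z1, K0, u, v, hρ0, hρ1, hne, hK0ne, hbig, hK0, hi, hii⟩ :=
    select hP hk hcut hS hR
  obtain ⟨e0, he0⟩ := hK0ne
  obtain ⟨hJ0, hu0, hv0, ha00, hb00, hc0, hc1⟩ := hK0 e0 he0
  have hF := hS.forest
  have hrootR : ∀ x, x ∈ R → root x = x := fun x hx =>
    hF.rootOut x (fun h => (mem_compl.mp h) hx)
  have hrootMem : ∀ x, root x ∈ R := by
    intro x
    by_cases hx : x ∈ R
    · rw [hrootR x hx]
      exact hx
    · exact hF.rootH x (mem_compl.mpr hx)
  have hforest := merge_step hF hρ0 hJ0 hu0 hv0 hne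
  set root' : V → V := fun x => if root x = ρ0 then ρ1 else root x with hroot'
  have hr'0 : ∀ x, root x = ρ0 → root' x = ρ1 := fun x h => if_pos h
  have hr'1 : ∀ x, root x ≠ ρ0 → root' x = root x := fun x h => if_neg h
  have hr'1' : ∀ x, root x = ρ1 → root' x = ρ1 := fun x h => by
    rw [hr'1 x (by rw [h]; exact hne), h]
  have hlift : ∀ x p, Cov root L U (root x) p → Cov root' L U (root' x) p := by
    rintro x p ⟨y, hy, h1, h2⟩
    refine ⟨y, ?_, h1, h2⟩
    by_cases h : root x = ρ0
    · rw [hr'0 x h, hr'0 y (hy.trans h)]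
    · rw [hr'1 x h, hr'1 y (fun h' => h (hy.symm.trans h')), hy]
  have hsame : ∀ i, i < n → ∀ f ∈ K i, root' (G.fst f) = root' (G.snd f) := by
    intro i hi f hf
    have h1 := hS.same i hi f hf
    simp only [hroot', h1]
  refine ⟨R.erase ρ0, root', fun i => if i = n then a0 else a i, fun i => if i = n then b0 else b i,
    fun i => if i = n then e0 else ed i, fun i => if i = n then K0 else K i, ?_⟩
  have hne1 : ∀ i, i < n → i ≠ n := fun i hi => Nat.ne_of_lt hi
  refine ⟨?_, ?_, ?_, ?_, ?_, ?_, ?_, ?_, ?_, ?_⟩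
  · have h1 : (range (n + 1)).image (fun i => if i = n then e0 else ed i) =
        insert e0 ((range n).image ed) := by
      rw [range_add_one, image_insert, if_pos rfl]
      congr 1
      apply image_congr
      intro i hi
      have : i < n := mem_range.mp (mem_coe.mp hi)
      simp only [if_neg (hne1 i this)]
    rw [h1]
    exact hforest
  · have h1 := hS.Rcard
    have h2 := card_pos.mpr ⟨ρ0, hρ0⟩
    rw [card_erase_of_mem hρ0]
    omega
  · intro i hi
    by_cases h : i = n
    · simp only [if_pos h]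
      exact ⟨ha00, hb00⟩
    · simp only [if_neg h]
      exact hS.rec_pos i (by omega)
  · intro i hi
    by_cases h : i = n
    · simp only [if_pos h]
      exact he0
    · simp only [if_neg h]
      exact hS.mem i (by omega)
  · intro i hi
    by_cases h : i = n
    · simp only [if_pos h]
      exact hbig
    · simp only [if_neg h]
      exact hS.big i (by omega)
  · intro i hi f hf
    by_cases h : i = n
    · simp only [if_pos h] at hf
      obtain ⟨h1, h2, h3, _⟩ := hK0 f hf
      have h4 := hr'0 _ h2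
      have h5 := hr'1' _ h3
      rcases h1 with ⟨h6, h7⟩ | ⟨h6, h7⟩
      · rw [h6, h7, h4, h5]
      · rw [h6, h7, h4, h5]
    · simp only [if_neg h] at hf
      exact hsame i (by omega) f hf
  · have hdis : ∀ j, j < n → Disjoint K0 (K j) := by
      intro j hj
      apply disjoint_left.mpr
      intro f hf hf'
      have h1 := hS.same j hj f hf'
      obtain ⟨h2, h3, h4, _⟩ := hK0 f hf
      rcases h2 with ⟨h6, h7⟩ | ⟨h6, h7⟩
      · rw [h6, h7, h3, h4] at h1
        exact hne h1.symm
      · rw [h6, h7, h3, h4] at h1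
        exact hne h1
    intro i j hi hj hij
    by_cases h : i = n
    · have h' : j ≠ n := fun h' => hij (h.trans h'.symm)
      simp only [if_pos h, if_neg h']
      exact hdis j (by omega)
    · by_cases h' : j = n
      · simp only [if_neg h, if_pos h']
        exact (hdis i (by omega)).symm
      · simp only [if_neg h, if_neg h']
        exact hS.disj i j (by omega) (by omega) hij
  · intro p
    have hold := hS.overlap p
    set A := (range n).filter (fun i => a i ≤ p ∧ p ≤ b i) with hA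
    set P := R.filter (fun ρ => Cov root L U ρ p) with hPP
    set A' := (range (n + 1)).filter (fun i => (if i = n then a0 else a i) ≤ p ∧
      p ≤ (if i = n then b0 else b i)) with hA'
    set P' := (R.erase ρ0).filter (fun ρ => Cov root' L U ρ p) with hPP'
    have hnot : n ∉ A := by
      intro h
      have := mem_range.mp (mem_filter.mp h).1
      omega
    have hA1 : A' ⊆ insert n A := by
      intro i hi
      obtain ⟨h1, h2⟩ := mem_filter.mp hi
      have h3 := mem_range.mp h1
      by_cases h : i = n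
      · rw [h]
        exact mem_insert_self _ _
      · simp only [if_neg h] at h2
        exact mem_insert_of_mem (mem_filter.mpr ⟨mem_range.mpr (by omega), h2⟩)
    have hP1 : ∀ ρ ∈ P', ρ ≠ ρ0 ∧ ρ ∈ R ∧ (ρ ∈ P ∨ (ρ = ρ1 ∧ ρ0 ∈ P)) := by
      intro ρ hρ
      obtain ⟨h1, x, hx, h2, h3⟩ := mem_filter.mp hρ
      obtain ⟨h4, h5⟩ := mem_erase.mp h1
      refine ⟨h4, h5, ?_⟩
      by_cases h : root x = ρ0
      · right
        rw [hr'0 x h] at hx
        exact ⟨hx.symm, mem_filter.mpr ⟨hρ0, x, h, h2, h3⟩⟩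
      · left
        rw [hr'1 x h] at hx
        exact mem_filter.mpr ⟨h5, x, hx, h2, h3⟩
    by_cases hin : a0 ≤ p ∧ p ≤ b0
    · obtain ⟨hc0', hc1'⟩ := hi p hin.1 hin.2
      have h0P : ρ0 ∈ P := mem_filter.mpr ⟨hρ0, hc0'⟩
      have h1P : ρ1 ∈ P := mem_filter.mpr ⟨hρ1, hc1'⟩
      have hP2 : P' ⊆ P.erase ρ0 := by
        intro ρ hρ
        obtain ⟨h1, _, h3⟩ := hP1 ρ hρ
        apply mem_erase.mpr
        refine ⟨h1, ?_⟩
        rcases h3 with h3 | ⟨h3, _⟩
        · exact h3
        · rw [h3]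
          exact h1P
      have h2 := card_le_card hA1
      rw [card_insert_of_notMem hnot] at h2
      have h3 := card_le_card hP2
      rw [card_erase_of_mem h0P] at h3
      have h4 := card_pos.mpr ⟨ρ0, h0P⟩
      omega
    · have hA2 : A' ⊆ A := by
        intro i hi
        obtain ⟨h1, h2⟩ := mem_filter.mp hi
        have h3 := mem_range.mp h1
        by_cases h : i = n
        · simp only [if_pos h] at h2
          exact absurd h2 hin
        · simp only [if_neg h] at h2
          exact mem_filter.mpr ⟨mem_range.mpr (by omega), h2⟩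
      have h2 := card_le_card hA2
      by_cases h0P : ρ0 ∈ P
      · have h1P : ρ1 ∉ P := by
          intro h
          exact hin (hii p (mem_filter.mp h0P).2 (mem_filter.mp h).2)
        have hP2 : P' ⊆ insert ρ1 (P.erase ρ0) := by
          intro ρ hρ
          obtain ⟨h1, _, h3⟩ := hP1 ρ hρ
          rcases h3 with h3 | ⟨h3, _⟩
          · exact mem_insert_of_mem (mem_erase.mpr ⟨h1, h3⟩)
          · rw [h3]
            exact mem_insert_self _ _
        have h3 := card_le_card hP2
        have h4 := card_insert_le ρ1 (P.erase ρ0)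
        rw [card_erase_of_mem h0P] at h4
        have h5 := card_pos.mpr ⟨ρ0, h0P⟩
        omega
      · have hP2 : P' ⊆ P := by
          intro ρ hρ
          obtain ⟨h1, _, h3⟩ := hP1 ρ hρ
          rcases h3 with h3 | ⟨_, h3⟩
          · exact h3
          · exact absurd h3 h0P
        have h3 := card_le_card hP2
        omega
  · intro x y hxy p h1 h2
    by_cases hsm : root x = root y
    · exact hlift x p (hS.span x y hsm p h1 h2)
    · -- the clusters of `x` and `y` are the two merged ones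
      have hends : ∃ x0 y0, root x0 = root x ∧ root y0 = root y ∧
          pos G L e0 ≤ U x0 ∧ L y0 ≤ pos G L e0 := by
        obtain ⟨h3, h4, h5, h6⟩ := pos_mem hP hJ0
        by_cases hx0 : root x = ρ0
        · have hy1 : root y = ρ1 := by
            have h7 := hxy
            rw [hr'0 x hx0] at h7
            by_cases hy0 : root y = ρ0
            · exact absurd (hx0.trans hy0.symm) hsm
            · rw [hr'1 y hy0] at h7
              exact h7.symm
          exact ⟨u e0, v e0, hu0.trans hx0.symm, hv0.trans hy1.symm, h4, h5⟩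
        · have hy0 : root y = ρ0 := by
            by_contra hy0
            have h7 := hxy
            rw [hr'1 x hx0, hr'1 y hy0] at h7
            exact hsm h7
          have hx1 : root x = ρ1 := by
            have h7 := hxy
            rw [hr'1 x hx0, hr'0 y hy0] at h7
            exact h7
          exact ⟨v e0, u e0, hv0.trans hx1.symm, hu0.trans hy0.symm, h6, h3⟩
      obtain ⟨x0, y0, h3, h4, h5, h6⟩ := hends
      by_cases hp : p ≤ U x0
      · exact hlift x p (hS.span x x0 h3.symm p h1 hp)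
      · have h7 : L y0 ≤ p := by omega
        have h8 := hS.span y0 y h4 p h7 h2
        rw [h4] at h8
        rw [hxy]
        exact hlift y p h8
  · intro i hi S hcr
    by_cases h : i = n
    · simp only [if_pos h] at hcr ⊢
      by_cases hj : ∃ j, j < n ∧ a0 ≤ a j ∧ b j ≤ b0 ∧ G.Crosses S (ed j)
      · obtain ⟨j, hj1, hj2, hj3, hj4⟩ := hj
        right
        refine ⟨j, by omega, ?_⟩
        simp only [if_neg (hne1 j hj1)]
        exact ⟨hj2, hj3, hj4⟩
      · left
        have hno : ∀ e ∈ Fint n a b ed a0 b0, ¬ G.Crosses S e := by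
          intro e he hce
          obtain ⟨j, hj1, rfl⟩ := mem_image.mp he
          obtain ⟨hj2, hj3, hj4⟩ := mem_filter.mp hj1
          exact hj ⟨j, mem_range.mp hj2, hj3, hj4, hce⟩
        have hu1 := conn_side hno hc0
        have hv1 := conn_side hno hc1
        have hz01 := (FCtx.crosses_iff hJ0).mp hcr
        intro f hf
        obtain ⟨h1, _, _, _, _, h6, h7⟩ := hK0 f hf
        apply (FCtx.crosses_iff h1).mpr
        intro h8
        apply hz01
        have h9 := conn_side hno h6
        have h10 := conn_side hno h7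
        exact hu1.trans (h9.symm.trans (h8.trans (h10.trans hv1.symm)))
    · simp only [if_neg h] at hcr ⊢
      rcases hS.analysis i (by omega) S hcr with h1 | ⟨j, hj1, hj2, hj3, hj4⟩
      · exact Or.inl h1
      · right
        refine ⟨j, hj1, ?_⟩
        have hjn : j ≠ n := by omega
        simp only [if_neg hjn]
        exact ⟨hj2, hj3, hj4⟩

/-- The state after all merges but one. -/
lemma all_merges [Nonempty E] (hP : G.PathDec W L U) (hk : 1 ≤ k)
    (hcut : ∀ P : Finset V, P.Nonempty → P ≠ univ → k ≤ G.cutCount univ (P : Set V)) :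
    ∀ m, m + 1 ≤ Fintype.card V → ∃ (R' : Finset V) (root' : V → V) (a' b' : ℕ → ℕ) (ed' : ℕ → E)
      (K' : ℕ → Finset E), St G W k L U m R' root' a' b' ed' K' := by
  intro m
  induction m with
  | zero =>
    intro _
    exact ⟨univ, id, fun _ => 0, fun _ => 0, fun _ => Classical.arbitrary E, fun _ => ∅,
      initial hP _ _ _ _⟩
  | succ m ih =>
    intro hm
    obtain ⟨R', root', a', b', ed', K', hS⟩ := ih (by omega)
    have h1 := hS.Rcard
    exact step hP hk hcut hS (by omega)

/-- The counting: every tree edge in a cut charges a nested merge whose whole class is in the cut. -/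
lemma count (hS : St G W k L U n R root a b ed K) (S : Set V) :
    k * G.cutCount ((range n).image ed) S ≤ W ^ 2 * (6 * W + 2) ^ 2 * G.cutCount univ S := by
  set X := (range n).filter (fun i => G.Crosses S (ed i)) with hX
  have hXmem : ∀ i, i ∈ X ↔ i < n ∧ G.Crosses S (ed i) := by
    intro i
    simp [hX]
  have h1 : G.cutCount ((range n).image ed) S ≤ X.card := by
    unfold Multigraph.cutCount
    have hsub : ((range n).image ed).filter (fun e => G.Crosses S e) ⊆ X.image ed := by
      intro e he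
      obtain ⟨h1, h2⟩ := mem_filter.mp he
      obtain ⟨i, hi, rfl⟩ := mem_image.mp h1
      exact mem_image_of_mem _ ((hXmem i).2 ⟨mem_range.mp hi, h2⟩)
    exact (card_le_card hsub).trans card_image_le
  have hdesc : ∀ i, i ∈ X → ∃ g, g ∈ X ∧ (∀ f ∈ K g, G.Crosses S f) ∧ a i ≤ a g ∧ b g ≤ b i := by
    intro i
    induction i using Nat.strong_induction_on with
    | _ i ih =>
      intro hi
      obtain ⟨h1, h2⟩ := (hXmem i).1 hi
      rcases hS.analysis i h1 S h2 with h3 | ⟨j, hj1, hj2, hj3, hj4⟩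
      · exact ⟨i, hi, h3, le_rfl, le_rfl⟩
      · obtain ⟨g, hg1, hg2, hg3, hg4⟩ := ih j hj1 ((hXmem j).2 ⟨by omega, hj4⟩)
        exact ⟨g, hg1, hg2, by omega, by omega⟩
  have hch : ∀ i, ∃ g, i ∈ X → g ∈ X ∧ (∀ f ∈ K g, G.Crosses S f) ∧ a i ≤ a g ∧ b g ≤ b i := by
    intro i
    by_cases hi : i ∈ X
    · obtain ⟨g, hg⟩ := hdesc i hi
      exact ⟨g, fun _ => hg⟩
    · exact ⟨i, fun h => absurd h hi⟩
  choose γ hγ using hch
  set Gd := X.image γ with hGd
  have hGdmem : ∀ g ∈ Gd, g ∈ X ∧ ∀ f ∈ K g, G.Crosses S f := by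
    intro g hg
    obtain ⟨i, hi, rfl⟩ := mem_image.mp hg
    exact ⟨(hγ i hi).1, (hγ i hi).2.1⟩
  have h2 : X.card ≤ W * Gd.card := by
    apply card_le_mul_card_image_of_maps_to (f := γ) (fun i hi => mem_image_of_mem _ hi) W
    intro g hg
    obtain ⟨hgX, _⟩ := hGdmem g hg
    have hgn := ((hXmem g).1 hgX).1
    obtain ⟨h3, h4⟩ := hS.rec_pos g hgn
    have h5 : (X.filter (fun i => γ i = g)) ⊆ (range n).filter (fun i => a i ≤ a g ∧ a g ≤ b i) := by
      intro i hi
      obtain ⟨h6, h7⟩ := mem_filter.mp hi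
      obtain ⟨_, _, h8, h9⟩ := hγ i h6
      rw [h7] at h8 h9
      exact mem_filter.mpr ⟨mem_range.mpr ((hXmem i).1 h6).1, h8, by omega⟩
    have h6 := hS.overlap (a g)
    have h7 := card_le_card h5
    omega
  have h3 : k * Gd.card ≤ W * (6 * W + 2) ^ 2 * G.cutCount univ S := by
    have hdis : ∀ x ∈ Gd, ∀ y ∈ Gd, x ≠ y → Disjoint (K x) (K y) := by
      intro x hx y hy hxy
      exact hS.disj x y ((hXmem x).1 (hGdmem x hx).1).1 ((hXmem y).1 (hGdmem y hy).1).1 hxy
    have h4 : (Gd.biUnion K).card = ∑ g ∈ Gd, (K g).card := card_biUnion hdis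
    have h5 : (Gd.biUnion K).card ≤ G.cutCount univ S := by
      unfold Multigraph.cutCount
      apply card_le_card
      intro f hf
      obtain ⟨g, hg, hfg⟩ := mem_biUnion.mp hf
      exact mem_filter.mpr ⟨mem_univ _, (hGdmem g hg).2 f hfg⟩
    have h6 : k * Gd.card ≤ ∑ g ∈ Gd, W * (6 * W + 2) ^ 2 * (K g).card := by
      rw [mul_comm, ← smul_eq_mul, ← sum_const]
      apply sum_le_sum
      intro g hg
      exact hS.big g ((hXmem g).1 (hGdmem g hg).1).1
    rw [← mul_sum, ← h4] at h6
    exact h6.trans (Nat.mul_le_mul_left _ h5)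
  calc k * G.cutCount ((range n).image ed) S ≤ k * X.card := Nat.mul_le_mul_left _ h1
    _ ≤ k * (W * Gd.card) := Nat.mul_le_mul_left _ h2
    _ = W * (k * Gd.card) := by ring
    _ ≤ W * (W * (6 * W + 2) ^ 2 * G.cutCount univ S) := Nat.mul_le_mul_left _ h3
    _ = W ^ 2 * (6 * W + 2) ^ 2 * G.cutCount univ S := by ring

end PW

/-- A `k`-edge-connected multigraph with a path decomposition with bags of size at most `W` has a
spanning tree of thinness `W ^ 2 * (6 * W + 2) ^ 2 / k`. -/
theorem exists_thin_pathwidth [Fintype V] [Fintype E] [Nonempty V] (G : Multigraph V E) {k W : ℕ} (hk : 1 ≤ k)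
    (hconn : G.EdgeConnected k) (L U : V → ℕ) (hP : G.PathDec W L U) :
    ∃ T : Finset E, G.IsSpanningTree T ∧ ∀ S : Set V,
      k * G.cutCount T S ≤ W ^ 2 * (6 * W + 2) ^ 2 * G.cutCount univ S := by
  have hcut : ∀ P : Finset V, P.Nonempty → P ≠ univ → k ≤ G.cutCount univ (P : Set V) := by
    intro P hP' hP''
    apply hconn
    · exact hP'
    · intro h
      apply hP''
      exact_mod_cast h
  have hVpos : 0 < Fintype.card V := Fintype.card_pos
  by_cases hE : Nonempty E
  · obtain ⟨R, root, a, b, ed, K, hS⟩ := PW.all_merges hP hk hcut (Fintype.card V - 1) (by omega)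
    have h1 := hS.Rcard
    obtain ⟨T, hT, hTS⟩ := merge_roots G hk hcut 0 R _ root (by omega) hS.forest
    refine ⟨T, hT, fun S => ?_⟩
    have h2 := hTS S
    have h3 := PW.count hS S
    calc k * G.cutCount T S ≤ k * G.cutCount ((range (Fintype.card V - 1)).image ed) S :=
          Nat.mul_le_mul_left _ (by omega)
      _ ≤ _ := h3
  · rw [not_nonempty_iff] at hE
    have hF : RootedForest G (univ : Finset V)ᶜ univ (∅ : Finset E) id := by
      refine ⟨?_, ?_, ?_, ?_, ?_, ?_⟩
      · simp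
      · simp
      · intro v _
        exact mem_univ _
      · intro v _
        rfl
      · intro e he
        simp at he
      · intro v
        exact Relation.ReflTransGen.refl
    obtain ⟨T, hT, _⟩ := merge_roots G hk hcut (Fintype.card V - 1) univ ∅ id
      (by rw [card_univ]; omega) hF
    refine ⟨T, hT, fun S => ?_⟩
    have h1 : T = ∅ := eq_empty_of_isEmpty T
    rw [h1]
    simp [Multigraph.cutCount]

end Vale.Agent.Lib.P061
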