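import Vale.Agent.Lib.P061.Defs

/-!
Thin spanning trees in edge-connected multigraphs of bounded tree-depth.

`TreeDepthLE d X` is the usual recursive notion for the subgraph induced on `X`: the empty set has
tree-depth at most every `d`, a disjoint union of two parts with no edge between them has tree-depth
at most `d` if both parts do, and adding one vertex (joined arbitrarily) raises the bound by one.

The proof builds a rooted spanning forest of `H` with roots in `R` along the recursion.
-/

namespace Vale.Agent.Lib.P061

open Classical Finset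

variable {V E : Type}

/-- No edge copy has one endpoint in `A` and the other endpoint in `B`. -/
def Multigraph.NoEdgeBetween (G : Multigraph V E) (A B : Finset V) : Prop :=
  ∀ e, ¬ ((G.fst e ∈ A ∧ G.snd e ∈ B) ∨ (G.fst e ∈ B ∧ G.snd e ∈ A))

/-- The subgraph of `G` induced on `X` has tree-depth at most `d` (the graph with one vertex has
tree-depth one). -/
inductive Multigraph.TreeDepthLE (G : Multigraph V E) : ℕ → Finset V → Prop
  | empty (d : ℕ) : Multigraph.TreeDepthLE G d ∅
  | union (d : ℕ) (A B : Finset V) : Disjoint A B → G.NoEdgeBetween A B →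
      Multigraph.TreeDepthLE G d A → Multigraph.TreeDepthLE G d B →
      Multigraph.TreeDepthLE G d (A ∪ B)
  | cone (d : ℕ) (A : Finset V) (v : V) : v ∉ A → Multigraph.TreeDepthLE G d A →
      Multigraph.TreeDepthLE G (d + 1) (insert v A)

/-- Copies with at least one endpoint in `H`. -/
noncomputable def Multigraph.edgesAt [Fintype E] (G : Multigraph V E) (H : Finset V) : Finset E :=
  univ.filter (fun e => G.fst e ∈ H ∨ G.snd e ∈ H)

/-- `a` and `b` are joined by a walk along copies of `F`. -/
def Multigraph.Conn (G : Multigraph V E) (F : Finset E) : V → V → Prop :=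
  Relation.ReflTransGen
    (fun a b => ∃ e ∈ F, (G.fst e = a ∧ G.snd e = b) ∨ (G.fst e = b ∧ G.snd e = a))

lemma Conn.symm {G : Multigraph V E} {F : Finset E} {a b : V} (h : G.Conn F a b) :
    G.Conn F b a := by
  induction h with
  | refl => exact Relation.ReflTransGen.refl
  | tail _ hstep ih =>
    obtain ⟨e, he, h'⟩ := hstep
    exact Relation.ReflTransGen.head ⟨e, he, h'.symm⟩ ih

lemma Conn.mono {G : Multigraph V E} {F F' : Finset E} (hF : F ⊆ F') {a b : V}
    (h : G.Conn F a b) : G.Conn F' a b := by
  induction h with
  | refl => exact Relation.ReflTransGen.refl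
  | tail _ hstep ih =>
    obtain ⟨e, he, h'⟩ := hstep
    exact ih.tail ⟨e, hF he, h'⟩

/-- A copy joining `a` and `b`, whose sides agree with those of `v` and `r`, crosses. -/
lemma crosses_of_iff {G : Multigraph V E} {S : Set V} {e : E} {a b v r : V}
    (ha : a ∈ S ↔ v ∈ S) (hb : b ∈ S ↔ r ∈ S) (hvr : ¬ (v ∈ S ↔ r ∈ S))
    (h : (G.fst e = a ∧ G.snd e = b) ∨ (G.fst e = b ∧ G.snd e = a)) : G.Crosses S e := by
  unfold Multigraph.Crosses
  rcases h with ⟨h4, h5⟩ | ⟨h4, h5⟩
  · rw [h4, h5]; tauto
  · rw [h4, h5]; tauto

/-- Conversely, sides of `v` and `r` differ once such a copy crosses. -/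
lemma not_iff_of_crosses {G : Multigraph V E} {S : Set V} {e : E} {a b v r : V}
    (ha : a ∈ S ↔ v ∈ S) (hb : b ∈ S ↔ r ∈ S) (hc : G.Crosses S e)
    (h : (G.fst e = a ∧ G.snd e = b) ∨ (G.fst e = b ∧ G.snd e = a)) : ¬ (v ∈ S ↔ r ∈ S) := by
  unfold Multigraph.Crosses at hc
  rcases h with ⟨h4, h5⟩ | ⟨h4, h5⟩
  · rw [h4, h5] at hc; tauto
  · rw [h4, h5] at hc; tauto

lemma Conn.mem_iff {G : Multigraph V E} {F : Finset E} {S : Set V}
    (hF : ∀ e ∈ F, ¬ G.Crosses S e) {a b : V} (h : G.Conn F a b) : a ∈ S ↔ b ∈ S := by
  induction h with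
  | refl => exact Iff.rfl
  | tail _ hstep ih =>
    rename_i x y
    obtain ⟨e, he, h'⟩ := hstep
    have hc := hF e he
    unfold Multigraph.Crosses at hc
    rw [ih]
    rcases h' with ⟨h1, h2⟩ | ⟨h1, h2⟩
    · subst h1; subst h2; tauto
    · subst h1; subst h2; tauto

lemma cutCount_mono (G : Multigraph V E) {F F' : Finset E} (hF : F ⊆ F') (S : Set V) :
    G.cutCount F S ≤ G.cutCount F' S :=
  card_le_card (filter_subset_filter _ hF)

lemma cutCount_union_le (G : Multigraph V E) (F F' : Finset E) (S : Set V) :
    G.cutCount (F ∪ F') S ≤ G.cutCount F S + G.cutCount F' S := by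
  unfold Multigraph.cutCount
  rw [filter_union]
  exact card_union_le _ _

lemma cutCount_add_le (G : Multigraph V E) {F F' F'' : Finset E} (hd : Disjoint F F')
    (hs : F ∪ F' ⊆ F'') (S : Set V) :
    G.cutCount F S + G.cutCount F' S ≤ G.cutCount F'' S := by
  unfold Multigraph.cutCount
  rw [← card_union_of_disjoint (disjoint_filter_filter hd), ← filter_union]
  exact card_le_card (filter_subset_filter _ hs)

lemma cutCount_insert_le (G : Multigraph V E) (e : E) (F : Finset E) (S : Set V) :
    G.cutCount (insert e F) S ≤ G.cutCount F S + (if G.Crosses S e then 1 else 0) := by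
  unfold Multigraph.cutCount
  rw [filter_insert]
  split_ifs with h
  · exact card_insert_le _ _
  · simp

section
variable [Fintype E]

lemma edgesAt_mono (G : Multigraph V E) {A B : Finset V} (h : A ⊆ B) :
    G.edgesAt A ⊆ G.edgesAt B := by
  intro e he
  simp only [Multigraph.edgesAt, mem_filter, mem_univ, true_and] at he ⊢
  rcases he with h1 | h1
  · exact Or.inl (h h1)
  · exact Or.inr (h h1)

/-- A spanning forest of `H`, every tree of which has exactly one root, the roots lying in `R`. -/
structure RootedForest (G : Multigraph V E) (H R : Finset V) (F : Finset E) (root : V → V) :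
    Prop where
  sub : F ⊆ G.edgesAt H
  card : F.card = H.card
  rootH : ∀ v ∈ H, root v ∈ R
  rootOut : ∀ v, v ∉ H → root v = v
  edge : ∀ e ∈ F, root (G.fst e) = root (G.snd e)
  conn : ∀ v, G.Conn F v (root v)

/-- Endpoints of a copy at `A` avoid `B` when no copy joins `A` and `B`. -/
lemma endpoint_not_mem {G : Multigraph V E} {A B : Finset V} (hd : Disjoint A B)
    (hno : G.NoEdgeBetween A B) {e : E} (he : e ∈ G.edgesAt A) :
    G.fst e ∉ B ∧ G.snd e ∉ B := by
  simp only [Multigraph.edgesAt, mem_filter, mem_univ, true_and] at he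
  have hna : ∀ x, x ∈ A → x ∉ B := fun x hx hx' => (disjoint_left.mp hd) hx hx'
  constructor
  · intro h1
    rcases he with h2 | h2
    · exact hna _ h2 h1
    · exact hno e (Or.inr ⟨h1, h2⟩)
  · intro h1
    rcases he with h2 | h2
    · exact hno e (Or.inl ⟨h2, h1⟩)
    · exact hna _ h2 h1

lemma edgesAt_disjoint {G : Multigraph V E} {A B : Finset V} (hd : Disjoint A B)
    (hno : G.NoEdgeBetween A B) : Disjoint (G.edgesAt A) (G.edgesAt B) := by
  rw [disjoint_left]
  intro e he he'
  have h := endpoint_not_mem hd hno he
  simp only [Multigraph.edgesAt, mem_filter, mem_univ, true_and] at he'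
  rcases he' with h1 | h1
  · exact h.1 h1
  · exact h.2 h1

variable [Fintype V]

/-- The recursion. -/
theorem forest_key (G : Multigraph V E) {k : ℕ} (hk : 1 ≤ k)
    (hcut : ∀ P : Finset V, P.Nonempty → P ≠ univ → k ≤ G.cutCount univ (P : Set V))
    {d : ℕ} {H : Finset V} (hTD : G.TreeDepthLE d H) :
    ∀ (R : Finset V) (ρ : ℕ), R.Nonempty → R.card ≤ ρ → Disjoint H R →
      (∀ e, G.fst e ∈ H → G.snd e ∈ H ∪ R) → (∀ e, G.snd e ∈ H → G.fst e ∈ H ∪ R) →
      ∃ (F : Finset E) (root : V → V), RootedForest G H R F root ∧
        (∀ S : Set V, (∃ e ∈ F, G.Crosses S e) →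
          k ≤ (ρ + d - 1) * G.cutCount (G.edgesAt H) S) ∧
        (∀ S : Set V, k * G.cutCount F S ≤ d * (ρ + d - 1) * G.cutCount (G.edgesAt H) S) := by
  induction hTD with
  | empty d =>
    intro R ρ _ _ _ _ _
    refine ⟨∅, id, ⟨by simp, by simp, by simp, by simp, by simp, ?_⟩, by simp, ?_⟩
    · intro v; exact Relation.ReflTransGen.refl
    · intro S; simp [Multigraph.cutCount]
  | union d A B hd hno _ _ ihA ihB =>
    intro R ρ hR hρ hdisj hfst hsnd
    have hdA : Disjoint A R := disjoint_of_subset_left subset_union_left hdisj
    have hdB : Disjoint B R := disjoint_of_subset_left subset_union_right hdisj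
    have hAB : ∀ x, x ∈ A → x ∉ B := fun x hx hx' => (disjoint_left.mp hd) hx hx'
    obtain ⟨FA, rA, hA, hMA, hCA⟩ := ihA R ρ hR hρ hdA
      (by
        intro e he
        have h1 := hfst e (mem_union_left _ he)
        simp only [mem_union] at h1 ⊢
        rcases h1 with (h1 | h1) | h1
        · exact Or.inl h1
        · exact absurd (Or.inl ⟨he, h1⟩) (hno e)
        · exact Or.inr h1)
      (by
        intro e he
        have h1 := hsnd e (mem_union_left _ he)
        simp only [mem_union] at h1 ⊢
        rcases h1 with (h1 | h1) | h1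
        · exact Or.inl h1
        · exact absurd (Or.inr ⟨h1, he⟩) (hno e)
        · exact Or.inr h1)
    obtain ⟨FB, rB, hB, hMB, hCB⟩ := ihB R ρ hR hρ hdB
      (by
        intro e he
        have h1 := hfst e (mem_union_right _ he)
        simp only [mem_union] at h1 ⊢
        rcases h1 with (h1 | h1) | h1
        · exact absurd (Or.inr ⟨he, h1⟩) (hno e)
        · exact Or.inl h1
        · exact Or.inr h1)
      (by
        intro e he
        have h1 := hsnd e (mem_union_right _ he)
        simp only [mem_union] at h1 ⊢
        rcases h1 with (h1 | h1) | h1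
        · exact absurd (Or.inl ⟨h1, he⟩) (hno e)
        · exact Or.inl h1
        · exact Or.inr h1)
    have hsubA : G.edgesAt A ⊆ G.edgesAt (A ∪ B) := edgesAt_mono G subset_union_left
    have hsubB : G.edgesAt B ⊆ G.edgesAt (A ∪ B) := edgesAt_mono G subset_union_right
    have hEd := edgesAt_disjoint hd hno
    have hFd : Disjoint FA FB := disjoint_of_subset_left hA.sub (disjoint_of_subset_right hB.sub hEd)
    refine ⟨FA ∪ FB, fun x => if x ∈ A then rA x else rB x, ⟨?_, ?_, ?_, ?_, ?_, ?_⟩, ?_, ?_⟩
    · exact union_subset (hA.sub.trans hsubA) (hB.sub.trans hsubB)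
    · rw [card_union_of_disjoint hFd, card_union_of_disjoint hd, hA.card, hB.card]
    · intro v hv
      by_cases hvA : v ∈ A
      · simp only [hvA, if_true]; exact hA.rootH v hvA
      · simp only [hvA, if_false]
        exact hB.rootH v ((mem_union.mp hv).resolve_left hvA)
    · intro v hv
      have hvA : v ∉ A := fun h => hv (mem_union_left _ h)
      have hvB : v ∉ B := fun h => hv (mem_union_right _ h)
      simp only [hvA, if_false]
      exact hB.rootOut v hvB
    · intro e he
      rcases mem_union.mp he with he | he
      · have hne := endpoint_not_mem hd hno (hA.sub he)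
        have hey := hA.edge e he
        have key : ∀ y, y ∉ B → (if y ∈ A then rA y else rB y) = rA y := by
          intro y hy
          by_cases hyA : y ∈ A
          · simp [hyA]
          · simp only [hyA, if_false]
            rw [hB.rootOut y hy, hA.rootOut y hyA]
        rw [key _ hne.1, key _ hne.2, hey]
      · have hne := endpoint_not_mem hd.symm (fun e' h => hno e' (by tauto)) (hB.sub he)
        have hey := hB.edge e he
        have key : ∀ y, y ∉ A → (if y ∈ A then rA y else rB y) = rB y := by
          intro y hy
          simp [hy]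
        rw [key _ hne.1, key _ hne.2, hey]
    · intro v
      by_cases hvA : v ∈ A
      · simp only [hvA, if_true]
        exact Conn.mono subset_union_left (hA.conn v)
      · simp only [hvA, if_false]
        exact Conn.mono subset_union_right (hB.conn v)
    · rintro S ⟨e, he, hc⟩
      rcases mem_union.mp he with he | he
      · exact (hMA S ⟨e, he, hc⟩).trans
          (Nat.mul_le_mul_left _ (cutCount_mono G hsubA S))
      · exact (hMB S ⟨e, he, hc⟩).trans
          (Nat.mul_le_mul_left _ (cutCount_mono G hsubB S))
    · intro S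
      have h1 := cutCount_union_le G FA FB S
      have h2 := hCA S
      have h3 := hCB S
      have h4 := cutCount_add_le G hEd (union_subset hsubA hsubB) S
      calc k * G.cutCount (FA ∪ FB) S
          ≤ k * (G.cutCount FA S + G.cutCount FB S) := Nat.mul_le_mul_left _ h1
        _ = k * G.cutCount FA S + k * G.cutCount FB S := by ring
        _ ≤ d * (ρ + d - 1) * G.cutCount (G.edgesAt A) S
              + d * (ρ + d - 1) * G.cutCount (G.edgesAt B) S := Nat.add_le_add h2 h3
        _ = d * (ρ + d - 1) * (G.cutCount (G.edgesAt A) S + G.cutCount (G.edgesAt B) S) := by ring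
        _ ≤ d * (ρ + d - 1) * G.cutCount (G.edgesAt (A ∪ B)) S := Nat.mul_le_mul_left _ h4
  | cone d A v hv _ ih =>
    intro R ρ hR hρ hdisj hfst hsnd
    have hAH : A ⊆ insert v A := subset_insert _ _
    have hdisjR : ∀ x, x ∈ insert v A → x ∉ R := fun x hx hx' => (disjoint_left.mp hdisj) hx hx'
    have hvR : v ∉ R := hdisjR v (mem_insert_self _ _)
    have hdA : Disjoint A (insert v R) := by
      rw [disjoint_left]
      intro x hx hx'
      rcases mem_insert.mp hx' with h | h
      · exact hv (h ▸ hx)
      · exact hdisjR x (hAH hx) h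
    obtain ⟨F', r', hF, hM, hC⟩ := ih (insert v R) (ρ + 1) (insert_nonempty _ _)
      ((card_insert_le _ _).trans (Nat.succ_le_succ hρ)) hdA
      (by
        intro e he
        have h1 := hfst e (hAH he)
        simp only [mem_union, mem_insert] at h1 ⊢
        tauto)
      (by
        intro e he
        have h1 := hsnd e (hAH he)
        simp only [mem_union, mem_insert] at h1 ⊢
        tauto)
    have harith : ρ + 1 + d - 1 = ρ + d := by omega
    have harith2 : ρ + (d + 1) - 1 = ρ + d := by omega
    rw [harith] at hM hC
    rw [harith2] at *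
    have hr'v : r' v = v := hF.rootOut v hv
    -- the tree of `v`
    set W : Finset V := (insert v A).filter (fun x => r' x = v) with hWdef
    have hvW : v ∈ W := by simp [hWdef, hr'v]
    have hWH : W ⊆ insert v A := filter_subset _ _
    have hWne : W.Nonempty := ⟨v, hvW⟩
    have hWuniv : W ≠ univ := by
      obtain ⟨r0, hr0⟩ := hR
      intro h
      have : r0 ∈ W := h ▸ mem_univ r0
      exact hdisjR r0 (hWH this) hr0
    have hkW := hcut W hWne hWuniv
    -- crossing copies, with the outer endpoint
    set CW : Finset E := univ.filter (fun e => G.Crosses (W : Set V) e) with hCW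
    have hkCW : k ≤ CW.card := hkW
    let out : E → V := fun e => if G.fst e ∈ W then G.snd e else G.fst e
    let inn : E → V := fun e => if G.fst e ∈ W then G.fst e else G.snd e
    have hcross : ∀ e ∈ CW, inn e ∈ W ∧ out e ∉ W ∧
        ((G.fst e = inn e ∧ G.snd e = out e) ∨ (G.fst e = out e ∧ G.snd e = inn e)) := by
      intro e he
      have he' : G.Crosses (W : Set V) e := (mem_filter.mp he).2
      unfold Multigraph.Crosses at he'
      simp only [mem_coe] at he'
      by_cases h : G.fst e ∈ W
      · have h1 : inn e = G.fst e := if_pos h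
        have h2 : out e = G.snd e := if_pos h
        rw [h1, h2]
        refine ⟨h, ?_, Or.inl ⟨rfl, rfl⟩⟩
        rcases he' with h3 | h3
        · exact h3.2
        · exact absurd h h3.1
      · have h1 : inn e = G.snd e := if_neg h
        have h2 : out e = G.fst e := if_neg h
        rw [h1, h2]
        refine ⟨?_, h, Or.inr ⟨rfl, rfl⟩⟩
        rcases he' with h3 | h3
        · exact absurd h3.1 h
        · exact h3.2
    have hnbr : ∀ e ∈ CW, out e ∈ insert v A ∪ R := by
      intro e he
      obtain ⟨h1, _, h3⟩ := hcross e he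
      rcases h3 with ⟨h3, h4⟩ | ⟨h3, h4⟩
      · rw [← h4]; exact hfst e (h3 ▸ hWH h1)
      · rw [← h3]; exact hsnd e (h4 ▸ hWH h1)
    have hoR : ∀ e ∈ CW, r' (out e) ∈ R := by
      intro e he
      obtain ⟨_, h2, _⟩ := hcross e he
      rcases mem_union.mp (hnbr e he) with h | h
      · have hne : r' (out e) ≠ v := fun h' => h2 (mem_filter.mpr ⟨h, h'⟩)
        have hA' : out e ∈ A := by
          rcases mem_insert.mp h with h' | h'
          · exact absurd hvW (h' ▸ h2)
          · exact h'
        have := hF.rootH _ hA'
        exact (mem_insert.mp this).resolve_left hne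
      · have hA' : out e ∉ A := fun h' => hdisjR _ (hAH h') h
        rw [hF.rootOut _ hA']
        exact h
    -- pigeonhole on the root of the outer endpoint
    obtain ⟨r, hrR, hBk⟩ : ∃ r ∈ R, k ≤ R.card * (CW.filter (fun e => r' (out e) = r)).card := by
      by_contra hcon
      push_neg at hcon
      have h1 : CW.card = ∑ r ∈ R, (CW.filter (fun e => r' (out e) = r)).card :=
        card_eq_sum_card_fiberwise (fun e he => hoR e he)
      have h2 : ∑ r ∈ R, R.card * (CW.filter (fun e => r' (out e) = r)).card
          < ∑ _r ∈ R, k := sum_lt_sum_of_nonempty hR hcon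
      rw [← mul_sum, ← h1, sum_const, smul_eq_mul] at h2
      have hRpos : 0 < R.card := card_pos.mpr hR
      exact absurd hkCW (not_le.mpr (Nat.lt_of_mul_lt_mul_left h2))
    set B : Finset E := CW.filter (fun e => r' (out e) = r) with hB
    have hBne : B.Nonempty := by
      apply card_pos.mp
      by_contra h0
      have : B.card = 0 := by omega
      rw [this] at hBk
      omega
    obtain ⟨e0, he0⟩ := hBne
    have hBCW : B ⊆ CW := filter_subset _ _
    have hrv : r ≠ v := fun h => hvR (h ▸ hrR)
    have hinnv : ∀ e ∈ CW, r' (inn e) = v := fun e he => (mem_filter.mp (hcross e he).1).2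
    have houtr : ∀ e ∈ B, r' (out e) = r := fun e he => (mem_filter.mp he).2
    have he0C := hcross e0 (hBCW he0)
    have he0F : e0 ∉ F' := by
      intro h
      have h1 := hF.edge e0 h
      have h2 := hinnv e0 (hBCW he0)
      have h3 := houtr e0 he0
      rcases he0C.2.2 with ⟨h4, h5⟩ | ⟨h4, h5⟩
      · rw [h4, h5, h2, h3] at h1; exact hrv h1.symm
      · rw [h4, h5, h2, h3] at h1; exact hrv h1
    have hBsub : B ⊆ G.edgesAt (insert v A) := by
      intro e he
      obtain ⟨h1, _, h3⟩ := hcross e (hBCW he)
      simp only [Multigraph.edgesAt, mem_filter, mem_univ, true_and]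
      rcases h3 with ⟨h3, _⟩ | ⟨_, h3⟩
      · exact Or.inl (h3 ▸ hWH h1)
      · exact Or.inr (h3 ▸ hWH h1)
    have hsubA : G.edgesAt A ⊆ G.edgesAt (insert v A) := edgesAt_mono G hAH
    -- the first estimate, needed for the second one
    have hMnew : ∀ S : Set V, (∃ e ∈ insert e0 F', G.Crosses S e) →
        k ≤ (ρ + d) * G.cutCount (G.edgesAt (insert v A)) S := by
      rintro S ⟨e, he, hc⟩
      by_cases hex : ∃ e' ∈ F', G.Crosses S e'
      · exact (hM S hex).trans (Nat.mul_le_mul_left _ (cutCount_mono G hsubA S))
      · have hno : ∀ e' ∈ F', ¬ G.Crosses S e' := fun e' he' hc' => hex ⟨e', he', hc'⟩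
        have hce0 : G.Crosses S e0 := by
          rcases mem_insert.mp he with h | h
          · exact h ▸ hc
          · exact absurd hc (hno e h)
        have hinn : ∀ e ∈ B, (inn e ∈ S ↔ v ∈ S) := by
          intro e he
          have := hF.conn (inn e)
          rw [hinnv e (hBCW he)] at this
          exact Conn.mem_iff hno this
        have hout : ∀ e ∈ B, (out e ∈ S ↔ r ∈ S) := by
          intro e he
          have := hF.conn (out e)
          rw [houtr e he] at this
          exact Conn.mem_iff hno this
        have hvr : ¬ (v ∈ S ↔ r ∈ S) :=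
          not_iff_of_crosses (hinn e0 he0) (hout e0 he0) hce0 he0C.2.2
        have hBc : ∀ e ∈ B, G.Crosses S e := fun e he =>
          crosses_of_iff (hinn e he) (hout e he) hvr (hcross e (hBCW he)).2.2
        have hBcard : B.card ≤ G.cutCount (G.edgesAt (insert v A)) S := by
          unfold Multigraph.cutCount
          apply card_le_card
          intro e he
          exact mem_filter.mpr ⟨hBsub he, hBc e he⟩
        calc k ≤ R.card * B.card := hBk
          _ ≤ ρ * B.card := Nat.mul_le_mul_right _ hρ
          _ ≤ (ρ + d) * G.cutCount (G.edgesAt (insert v A)) S :=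
              Nat.mul_le_mul (Nat.le_add_right _ _) hBcard
    refine ⟨insert e0 F', fun x => if r' x = v then r else r' x, ⟨?_, ?_, ?_, ?_, ?_, ?_⟩, hMnew, ?_⟩
    · exact insert_subset (hBsub he0) (hF.sub.trans hsubA)
    · rw [card_insert_of_notMem he0F, hF.card, card_insert_of_notMem hv]
    · intro x hx
      by_cases hxv : r' x = v
      · simp only [hxv, if_true]; exact hrR
      · simp only [hxv, if_false]
        have hxA : x ∈ A := by
          rcases mem_insert.mp hx with h | h
          · exact absurd (h ▸ hr'v) hxv
          · exact h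
        exact (mem_insert.mp (hF.rootH x hxA)).resolve_left hxv
    · intro x hx
      have hxA : x ∉ A := fun h => hx (hAH h)
      have hxv : x ≠ v := fun h => hx (h ▸ mem_insert_self _ _)
      have h1 := hF.rootOut x hxA
      simp only [h1, hxv, if_false]
    · intro e he
      rcases mem_insert.mp he with rfl | he
      · have h2 := hinnv _ (hBCW he0)
        have h3 := houtr _ he0
        rcases he0C.2.2 with ⟨h4, h5⟩ | ⟨h4, h5⟩
        · rw [h4, h5]; simp only [h2, h3, hrv, if_true, if_false]
        · rw [h4, h5]; simp only [h2, h3, hrv, if_true, if_false]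
      · have h1 := hF.edge e he
        simp only [h1]
    · intro x
      have hmono : F' ⊆ insert e0 F' := subset_insert _ _
      by_cases hxv : r' x = v
      · simp only [hxv, if_true]
        have h1 : G.Conn (insert e0 F') x v := by
          have := hF.conn x
          rw [hxv] at this
          exact Conn.mono hmono this
        have h2 : G.Conn (insert e0 F') v (inn e0) := by
          have := hF.conn (inn e0)
          rw [hinnv _ (hBCW he0)] at this
          exact Conn.symm (Conn.mono hmono this)
        have h3 : G.Conn (insert e0 F') (inn e0) (out e0) := by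
          apply Relation.ReflTransGen.single
          exact ⟨e0, mem_insert_self _ _, he0C.2.2⟩
        have h4 : G.Conn (insert e0 F') (out e0) r := by
          have := hF.conn (out e0)
          rw [houtr _ he0] at this
          exact Conn.mono hmono this
        exact (h1.trans h2).trans (h3.trans h4)
      · simp only [hxv, if_false]
        exact Conn.mono hmono (hF.conn x)
    · intro S
      have h1 := cutCount_insert_le G e0 F' S
      have h2 := hC S
      have h3 := cutCount_mono G hsubA S
      have h2' : k * G.cutCount F' S ≤ d * (ρ + d) * G.cutCount (G.edgesAt (insert v A)) S :=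
        h2.trans (Nat.mul_le_mul_left _ h3)
      by_cases hce : G.Crosses S e0
      · have h4 := hMnew S ⟨e0, mem_insert_self _ _, hce⟩
        simp only [hce, if_true] at h1
        calc k * G.cutCount (insert e0 F') S
            ≤ k * (G.cutCount F' S + 1) := Nat.mul_le_mul_left _ h1
          _ = k * G.cutCount F' S + k := by ring
          _ ≤ d * (ρ + d) * G.cutCount (G.edgesAt (insert v A)) S
                + (ρ + d) * G.cutCount (G.edgesAt (insert v A)) S := Nat.add_le_add h2' h4
          _ = (d + 1) * (ρ + d) * G.cutCount (G.edgesAt (insert v A)) S := by ring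
      · simp only [hce, if_false, add_zero] at h1
        calc k * G.cutCount (insert e0 F') S
            ≤ k * G.cutCount F' S := Nat.mul_le_mul_left _ h1
          _ ≤ d * (ρ + d) * G.cutCount (G.edgesAt (insert v A)) S := h2'
          _ ≤ (d + 1) * (ρ + d) * G.cutCount (G.edgesAt (insert v A)) S :=
              Nat.mul_le_mul_right _ (Nat.mul_le_mul_right _ (Nat.le_succ d))

/-- A connected set of tree-depth at most `d` has a vertex whose removal lowers the bound. -/
lemma exists_root (G : Multigraph V E) {d : ℕ} {X : Finset V} (h : G.TreeDepthLE d X) :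
    X.Nonempty →
    (∀ A B : Finset V, Disjoint A B → A ∪ B = X → G.NoEdgeBetween A B → A = ∅ ∨ B = ∅) →
    ∃ r ∈ X, ∃ d', d = d' + 1 ∧ G.TreeDepthLE d' (X.erase r) := by
  induction h with
  | empty d => intro hne; simp at hne
  | union d A B hd hno _ _ ihA ihB =>
    intro hne hconn
    rcases hconn A B hd rfl hno with rfl | rfl
    · simp only [empty_union] at hne hconn ⊢
      exact ihB hne hconn
    · simp only [union_empty] at hne hconn ⊢
      exact ihA hne hconn
  | cone d A v hv h' _ =>
    intro _ _
    refine ⟨v, mem_insert_self _ _, d, rfl, ?_⟩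
    rw [erase_insert hv]
    exact h'

/-- An edgeless set has tree-depth at most one. -/
lemma treeDepth_independent (G : Multigraph V E) (I : Finset V)
    (hI : ∀ e, ¬ (G.fst e ∈ I ∧ G.snd e ∈ I)) : G.TreeDepthLE 1 I := by
  induction I using Finset.induction_on with
  | empty => exact Multigraph.TreeDepthLE.empty 1
  | insert a I' ha ih =>
    have h1 : G.TreeDepthLE 1 {a} := by
      have h0 : G.TreeDepthLE 0 ∅ := Multigraph.TreeDepthLE.empty 0
      have := Multigraph.TreeDepthLE.cone 0 ∅ a (notMem_empty a) h0
      simpa using this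
    have h2 : G.TreeDepthLE 1 I' := ih (fun e he =>
      hI e ⟨mem_insert_of_mem he.1, mem_insert_of_mem he.2⟩)
    have h3 : G.NoEdgeBetween {a} I' := by
      intro e he
      rcases he with ⟨h4, h5⟩ | ⟨h4, h5⟩
      · exact hI e ⟨mem_insert.mpr (Or.inl (mem_singleton.mp h4)), mem_insert_of_mem h5⟩
      · exact hI e ⟨mem_insert_of_mem h4, mem_insert.mpr (Or.inl (mem_singleton.mp h5))⟩
    have h4 := Multigraph.TreeDepthLE.union 1 {a} I' (disjoint_singleton_left.mpr ha) h3 h1 h2
    rwa [singleton_union] at h4

/-- Adding the vertices of `C` one by one raises the bound by `C.card`. -/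
lemma treeDepth_add (G : Multigraph V E) {d : ℕ} {X : Finset V} (hX : G.TreeDepthLE d X)
    (C : Finset V) (hC : Disjoint C X) : G.TreeDepthLE (d + C.card) (C ∪ X) := by
  induction C using Finset.induction_on with
  | empty => simpa using hX
  | insert a C' ha ih =>
    have hC' : Disjoint C' X := disjoint_of_subset_left (subset_insert _ _) hC
    have haX : a ∉ X := fun h => (disjoint_left.mp hC) (mem_insert_self _ _) h
    have h1 := Multigraph.TreeDepthLE.cone _ (C' ∪ X) a
      (by simp only [mem_union, not_or]; exact ⟨ha, haX⟩) (ih hC')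
    rw [card_insert_of_notMem ha, ← add_assoc, insert_union]
    exact h1

/-- A vertex cover of size `t` gives tree-depth at most `t + 1`. -/
lemma treeDepth_of_cover (G : Multigraph V E) (C : Finset V)
    (hC : ∀ e, G.fst e ∈ C ∨ G.snd e ∈ C) : G.TreeDepthLE (C.card + 1) univ := by
  have h1 : G.TreeDepthLE 1 (univ \ C) := by
    apply treeDepth_independent
    intro e he
    simp only [mem_sdiff, mem_univ, true_and] at he
    rcases hC e with h | h
    · exact he.1 h
    · exact he.2 h
  have h2 := treeDepth_add G h1 C disjoint_sdiff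
  rw [union_sdiff_of_subset (subset_univ C), add_comm] at h2
  exact h2

/-- The main estimate in natural numbers. -/
theorem exists_thin_tree [Nonempty V] (G : Multigraph V E) {k D : ℕ} (hk : 1 ≤ k)
    (hconn : G.EdgeConnected k) (hTD : G.TreeDepthLE (D + 1) univ) :
    ∃ T : Finset E, G.IsSpanningTree T ∧
      ∀ S : Set V, k * G.cutCount T S ≤ D ^ 2 * G.cutCount univ S := by
  have hcut : ∀ P : Finset V, P.Nonempty → P ≠ univ → k ≤ G.cutCount univ (P : Set V) := by
    intro P hP hP'
    apply hconn
    · exact hP
    · intro h
      apply hP'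
      exact_mod_cast h
  -- a root
  obtain ⟨r0, _, d', hd', hTD'⟩ := exists_root G hTD univ_nonempty (by
    intro A B hd hU hno
    by_contra hcon
    push_neg at hcon
    obtain ⟨hA, hB⟩ := hcon
    have hAne : A.Nonempty := hA
    obtain ⟨b, hb⟩ := hB
    have hAuniv : A ≠ univ := by
      intro h
      have : b ∈ A := h ▸ mem_univ b
      exact (disjoint_left.mp hd) this hb
    have h1 := hcut A hAne hAuniv
    have h2 : G.cutCount univ (A : Set V) = 0 := by
      unfold Multigraph.cutCount
      rw [card_eq_zero, filter_eq_empty_iff]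
      intro e _ hc
      unfold Multigraph.Crosses at hc
      simp only [mem_coe] at hc
      have hmem : ∀ x, x ∉ A → x ∈ B := by
        intro x hx
        have : x ∈ A ∪ B := hU ▸ mem_univ x
        exact (mem_union.mp this).resolve_left hx
      rcases hc with ⟨h3, h4⟩ | ⟨h3, h4⟩
      · exact hno e (Or.inl ⟨h3, hmem _ h4⟩)
      · exact hno e (Or.inr ⟨hmem _ h3, h4⟩)
    omega)
  have hD : d' = D := by omega
  subst hD
  obtain ⟨F, root, hF, _, hC⟩ := forest_key G hk hcut hTD' {r0} 1 (singleton_nonempty _) (by simp)
    (by simp)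
    (by intro e _; simp only [mem_union, mem_erase, mem_univ, and_true, mem_singleton]; tauto)
    (by intro e _; simp only [mem_union, mem_erase, mem_univ, and_true, mem_singleton]; tauto)
  have hroot : ∀ x, root x = r0 := by
    intro x
    by_cases hx : x = r0
    · subst hx
      exact hF.rootOut x (by simp)
    · have := hF.rootH x (by simp [hx])
      simpa using this
  refine ⟨F, ⟨?_, ?_⟩, ?_⟩
  · rw [hF.card, card_erase_of_mem (mem_univ _), card_univ]
    have : 0 < Fintype.card V := Fintype.card_pos
    omega
  · intro u v
    have h1 := hF.conn u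
    have h2 := hF.conn v
    rw [hroot] at h1 h2
    exact h1.trans (Conn.symm h2)
  · intro S
    have h1 := hC S
    have h2 := cutCount_mono G (subset_univ (G.edgesAt (univ.erase r0))) S
    calc k * G.cutCount F S ≤ d' * (1 + d' - 1) * G.cutCount (G.edgesAt (univ.erase r0)) S := h1
      _ ≤ d' * (1 + d' - 1) * G.cutCount univ S := Nat.mul_le_mul_left _ h2
      _ = d' ^ 2 * G.cutCount univ S := by
        have : 1 + d' - 1 = d' := by omega
        rw [this]; ring

end

end Vale.Agent.Lib.P061
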